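import Mathlib
import Crest.Prelude.Def_DaugavetL1

/-!
Row 125 / S0167, Daugavet half (helper45).

Generic consequences of the rank-one Daugavet equation (`HasDaugavetProperty`):
for a unit vector `x`, a closed finite-codimensional subspace `S` and `η > 0` there is a unit
`y ∈ S` with `‖x + 2 y‖ ≤ 1 + η` (`daugavet_star`).  From this: the upper bounds for the midpoint
and the one-sided asymptotic moduli and the absence of equivalent AUC norms (`daugavet_moduli`).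
-/

namespace Crest.Agent.S0167

open Crest.AnalysisR Crest.AnalysisR.L1Subspace

section slices

variable {V : Type*} [NormedAddCommGroup V] [NormedSpace ℝ V]

/-- Slice lemma: in a Daugavet space every slice of the unit ball contains a point almost at
distance `2` from `-u`. -/
theorem dg_slice (hD : HasDaugavetProperty V) (u : V) (hu : ‖u‖ = 1) (φ : V →L[ℝ] ℝ)
    (hφ : ‖φ‖ = 1) (ε : ℝ) (hε : 0 < ε) :
    ∃ z : V, ‖z‖ ≤ 1 ∧ 1 - ε ≤ φ z ∧ 2 - ε ≤ ‖u + z‖ := by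
  have h2 : ‖ContinuousLinearMap.id ℝ V + φ.smulRight u‖ = 2 := by
    rw [hD φ u, ContinuousLinearMap.norm_smulRight_apply, hφ, hu]; norm_num
  have hlt : 2 - ε / 2 < ‖ContinuousLinearMap.id ℝ V + φ.smulRight u‖ := by rw [h2]; linarith
  obtain ⟨z₀, hz₀, hz₀'⟩ := ContinuousLinearMap.exists_lt_apply_of_lt_opNorm _ hlt
  -- choose the sign
  have key : ∀ z : V, ‖z‖ ≤ 1 → 0 ≤ φ z → 2 - ε / 2 < ‖z + φ z • u‖ →
      ‖z‖ ≤ 1 ∧ 1 - ε ≤ φ z ∧ 2 - ε ≤ ‖u + z‖ := by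
    intro z hz hpos hbig
    have h1 : ‖z + φ z • u‖ ≤ 1 + φ z := by
      calc ‖z + φ z • u‖ ≤ ‖z‖ + ‖φ z • u‖ := norm_add_le _ _
        _ = ‖z‖ + φ z := by rw [norm_smul, hu, mul_one, Real.norm_of_nonneg hpos]
        _ ≤ 1 + φ z := by linarith
    have h3 : φ z ≤ 1 := by
      have := φ.le_opNorm z
      rw [hφ, one_mul] at this
      exact (le_abs_self _).trans (this.trans hz)
    refine ⟨hz, by linarith, ?_⟩
    have h4 : z + φ z • u = (u + z) - (1 - φ z) • u := by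
      rw [sub_smul, one_smul]; abel
    have h5 : ‖z + φ z • u‖ ≤ ‖u + z‖ + (1 - φ z) := by
      rw [h4]
      calc ‖(u + z) - (1 - φ z) • u‖ ≤ ‖u + z‖ + ‖(1 - φ z) • u‖ := norm_sub_le _ _
        _ = ‖u + z‖ + (1 - φ z) := by
          rw [norm_smul, hu, mul_one, Real.norm_of_nonneg (by linarith)]
    linarith
  have happ : (ContinuousLinearMap.id ℝ V + φ.smulRight u) z₀ = z₀ + φ z₀ • u := by
    simp
  rw [happ] at hz₀'
  rcases le_total 0 (φ z₀) with hpos | hneg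
  · exact ⟨z₀, key z₀ hz₀.le hpos hz₀'⟩
  · refine ⟨-z₀, key (-z₀) (by rw [norm_neg]; exact hz₀.le) (by rw [map_neg]; linarith) ?_⟩
    have : -z₀ + φ (-z₀) • u = -(z₀ + φ z₀ • u) := by
      rw [map_neg, neg_smul, neg_add]
    rw [this, norm_neg]; exact hz₀'

/-- Sequential choice in finitely many slices. -/
theorem dg_seq (hD : HasDaugavetProperty V) (u : V) (hu : ‖u‖ = 1) {ι : Type*}
    (φ : ι → (V →L[ℝ] ℝ)) (hφ : ∀ i, ‖φ i‖ = 1) (t : Finset ι) :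
    ∀ ε : ℝ, 0 < ε → ∃ z : ι → V, (∀ i ∈ t, ‖z i‖ ≤ 1 ∧ 1 - ε ≤ φ i (z i)) ∧
      (t.card : ℝ) + 1 - ε ≤ ‖u + ∑ i ∈ t, z i‖ ∧ 1 ≤ ‖u + ∑ i ∈ t, z i‖ := by
  classical
  induction t using Finset.induction_on with
  | empty =>
    intro ε hε
    refine ⟨fun _ => 0, by simp, ?_, ?_⟩
    · simp [hu]; linarith
    · simp [hu]
  | insert a t hat ih =>
    intro ε hε
    obtain ⟨z, hz, hbig, hone⟩ := ih (ε / 2) (by linarith)
    set w : V := u + ∑ i ∈ t, z i with hw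
    have hwpos : 0 < ‖w‖ := by linarith
    have hwle : ‖w‖ ≤ (t.card : ℝ) + 1 := by
      calc ‖w‖ ≤ ‖u‖ + ‖∑ i ∈ t, z i‖ := norm_add_le _ _
        _ ≤ 1 + ∑ i ∈ t, ‖z i‖ := by rw [hu]; gcongr; exact norm_sum_le _ _
        _ ≤ 1 + ∑ i ∈ t, (1 : ℝ) := by
          gcongr with i hi; exact (hz i hi).1
        _ = (t.card : ℝ) + 1 := by rw [Finset.sum_const, nsmul_eq_mul, mul_one, add_comm]
    set ε' : ℝ := min 1 (ε / (2 * ((t.card : ℝ) + 1))) with hε'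
    have hcpos : (0 : ℝ) < (t.card : ℝ) + 1 := by positivity
    have hε'pos : 0 < ε' := lt_min one_pos (by positivity)
    have hε'1 : ε' ≤ 1 := min_le_left _ _
    have hε'2 : ε' * ((t.card : ℝ) + 1) ≤ ε / 2 := by
      have : ε' ≤ ε / (2 * ((t.card : ℝ) + 1)) := min_le_right _ _
      calc ε' * ((t.card : ℝ) + 1) ≤ ε / (2 * ((t.card : ℝ) + 1)) * ((t.card : ℝ) + 1) := by
            gcongr
        _ = ε / 2 := by field_simp
    have hunit : ‖(‖w‖⁻¹ • w)‖ = 1 := by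
      rw [norm_smul, norm_inv, norm_norm, inv_mul_cancel₀ hwpos.ne']
    obtain ⟨y, hy1, hy2, hy3⟩ := dg_slice hD (‖w‖⁻¹ • w) hunit (φ a) (hφ a) (min ε' ε)
      (lt_min hε'pos hε)
    have hy2' : 1 - ε ≤ φ a y := by
      have := min_le_right ε' ε; linarith
    have hy3' : 2 - ε' ≤ ‖‖w‖⁻¹ • w + y‖ := by
      have := min_le_left ε' ε; linarith
    -- w + y = ‖w‖ • (ŵ + y) + (1 - ‖w‖) • y
    have hdec : w + y = ‖w‖ • (‖w‖⁻¹ • w + y) + (1 - ‖w‖) • y := by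
      rw [smul_add, smul_smul, mul_inv_cancel₀ hwpos.ne', one_smul, sub_smul, one_smul]; abel
    have hnorm : ‖w‖ * (2 - ε') - (‖w‖ - 1) ≤ ‖w + y‖ := by
      have h1 : ‖‖w‖ • (‖w‖⁻¹ • w + y)‖ ≤ ‖w + y‖ + ‖(1 - ‖w‖) • y‖ := by
        have : ‖w‖ • (‖w‖⁻¹ • w + y) = (w + y) - (1 - ‖w‖) • y := by rw [hdec]; abel
        rw [this]; exact norm_sub_le _ _
      have h2 : ‖(1 - ‖w‖) • y‖ ≤ ‖w‖ - 1 := by
        rw [norm_smul, Real.norm_eq_abs, abs_sub_comm, abs_of_nonneg (by linarith)]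
        calc (‖w‖ - 1) * ‖y‖ ≤ (‖w‖ - 1) * 1 := by gcongr
          _ = ‖w‖ - 1 := by ring
      have h3 : ‖‖w‖ • (‖w‖⁻¹ • w + y)‖ = ‖w‖ * ‖‖w‖⁻¹ • w + y‖ := by
        rw [norm_smul, norm_norm]
      have h4 : ‖w‖ * (2 - ε') ≤ ‖w‖ * ‖‖w‖⁻¹ • w + y‖ := by gcongr
      linarith
    refine ⟨Function.update z a y, ?_, ?_, ?_⟩
    · intro i hi
      rcases Finset.mem_insert.1 hi with rfl | hi'
      · simp only [Function.update_self]; exact ⟨hy1, hy2'⟩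
      · have hne : i ≠ a := by rintro rfl; exact hat hi'
        rw [Function.update_of_ne hne]
        exact ⟨(hz i hi').1, by linarith [(hz i hi').2]⟩
    all_goals
      have hsum : u + ∑ i ∈ insert a t, Function.update z a y i = w + y := by
        rw [Finset.sum_insert hat, Function.update_self]
        have : ∑ i ∈ t, Function.update z a y i = ∑ i ∈ t, z i := by
          refine Finset.sum_congr rfl fun i hi => ?_
          have hne : i ≠ a := by rintro rfl; exact hat hi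
          exact Function.update_of_ne hne _ _
        rw [this, hw]; abel
      rw [hsum]
    · rw [Finset.card_insert_of_notMem hat]
      push_cast
      nlinarith [mul_le_mul_of_nonneg_left hwle hε'pos.le]
    · nlinarith [mul_nonneg hwpos.le (sub_nonneg.2 hε'1)]

/-- Convex combinations of the sequentially chosen points stay almost at distance two. -/
theorem dg_convex (u : V) (hu : ‖u‖ = 1) {ι : Type*} (t : Finset ι) (z : ι → V)
    (hz : ∀ i ∈ t, ‖z i‖ ≤ 1) (ε : ℝ)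
    (h : (t.card : ℝ) + 1 - ε ≤ ‖u + ∑ i ∈ t, z i‖) (lam : ι → ℝ)
    (hlam0 : ∀ i ∈ t, 0 ≤ lam i) (hlam1 : ∑ i ∈ t, lam i = 1) :
    2 - 2 * ε ≤ ‖u + ∑ i ∈ t, lam i • z i‖ := by
  classical
  obtain ⟨ψ, hψ1, hψ2⟩ := exists_dual_vector'' ℝ (u + ∑ i ∈ t, z i)
  have hle : ∀ v : V, ψ v ≤ ‖v‖ := fun v =>
    (le_abs_self _).trans ((ψ.le_opNorm v).trans (by nlinarith [norm_nonneg v]))
  have hψ2' : ψ (u + ∑ i ∈ t, z i) = ‖u + ∑ i ∈ t, z i‖ := by simpa using hψ2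
  have hsumz : ψ u + ∑ i ∈ t, ψ (z i) = ‖u + ∑ i ∈ t, z i‖ := by
    rw [← hψ2', map_add, map_sum]
  have hu1 : ψ u ≤ 1 := (hle u).trans hu.le
  have hz1 : ∀ i ∈ t, ψ (z i) ≤ 1 := fun i hi => (hle _).trans (hz i hi)
  have hsumle : ∑ i ∈ t, ψ (z i) ≤ t.card := by
    calc ∑ i ∈ t, ψ (z i) ≤ ∑ i ∈ t, (1 : ℝ) := Finset.sum_le_sum hz1
      _ = t.card := by simp
  have hu2 : 1 - ε ≤ ψ u := by linarith
  have hz2 : ∀ j ∈ t, 1 - ε ≤ ψ (z j) := by
    intro j hj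
    have : ∑ i ∈ t, ψ (z i) = ψ (z j) + ∑ i ∈ t.erase j, ψ (z i) :=
      (Finset.add_sum_erase t (fun i => ψ (z i)) hj).symm
    have h2 : ∑ i ∈ t.erase j, ψ (z i) ≤ (t.card : ℝ) - 1 := by
      calc ∑ i ∈ t.erase j, ψ (z i) ≤ ∑ i ∈ t.erase j, (1 : ℝ) :=
            Finset.sum_le_sum fun i hi => hz1 i (Finset.mem_of_mem_erase hi)
        _ = (t.card : ℝ) - 1 := by
            rw [Finset.sum_const, Finset.card_erase_of_mem hj, nsmul_eq_mul, mul_one,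
              Nat.cast_sub (Finset.card_pos.2 ⟨j, hj⟩)]
            simp
    linarith
  calc 2 - 2 * ε = (1 - ε) + ∑ i ∈ t, lam i * (1 - ε) := by
        rw [← Finset.sum_mul, hlam1]; ring
    _ ≤ ψ u + ∑ i ∈ t, lam i * ψ (z i) := by
        gcongr with i hi
        · exact hlam0 i hi
        · exact hz2 i hi
    _ = ψ (u + ∑ i ∈ t, lam i • z i) := by
        rw [map_add, map_sum]; simp
    _ ≤ ‖u + ∑ i ∈ t, lam i • z i‖ := hle _

end slices

section far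

variable {W : Type*} [NormedAddCommGroup W] [InnerProductSpace ℝ W]

/-- The points of `K` that are farthest from some centre. -/
def dgFar (K : Set W) : Set W := {k | k ∈ K ∧ ∃ p : W, ∀ k' ∈ K, ‖k' - p‖ ≤ ‖k - p‖}

/-- The functional `⟪k - p, ·⟫` attains its maximum over `K` at a farthest point `k`. -/
theorem dg_far_max (K : Set W) (k p : W) (hk : ∀ k' ∈ K, ‖k' - p‖ ≤ ‖k - p‖) (x : W)
    (hx : x ∈ K) : inner ℝ (k - p) x ≤ inner ℝ (k - p) k := by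
  have h1 : inner ℝ (k - p) (x - p) ≤ ‖k - p‖ * ‖x - p‖ := real_inner_le_norm _ _
  have h2 : ‖k - p‖ * ‖x - p‖ ≤ ‖k - p‖ * ‖k - p‖ := by
    gcongr; exact hk x hx
  have h3 : inner ℝ (k - p) (k - p) = ‖k - p‖ * ‖k - p‖ := real_inner_self_eq_norm_mul_norm _
  have h4 : inner ℝ (k - p) (x - p) = inner ℝ (k - p) x - inner ℝ (k - p) p := inner_sub_right _ _ _
  have h5 : inner ℝ (k - p) (k - p) = inner ℝ (k - p) k - inner ℝ (k - p) p := inner_sub_right _ _ _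
  linarith

/-- Slices at farthest points are small. -/
theorem dg_slice_small (K : Set W) (k p : W) (hk : ∀ k' ∈ K, ‖k' - p‖ ≤ ‖k - p‖) (x : W)
    (hx : x ∈ K) (α : ℝ) (h : inner ℝ (k - p) k - α < inner ℝ (k - p) x) :
    ‖x - k‖ ^ 2 < 2 * α := by
  have e : x - k = (x - p) - (k - p) := by abel
  have h0 : ‖x - k‖ ^ 2 = ‖x - p‖ ^ 2 - 2 * inner ℝ (x - p) (k - p) + ‖k - p‖ ^ 2 := by
    rw [e]; exact norm_sub_sq_real _ _
  have h1 : ‖x - p‖ ^ 2 ≤ ‖k - p‖ ^ 2 := by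
    have := hk x hx
    exact pow_le_pow_left₀ (norm_nonneg _) this 2
  have h3 : inner ℝ (k - p) (k - p) = ‖k - p‖ ^ 2 := real_inner_self_eq_norm_sq _
  have h4 : inner ℝ (x - p) (k - p) = inner ℝ (k - p) x - inner ℝ (k - p) p := by
    rw [real_inner_comm]; exact inner_sub_right _ _ _
  have h5 : inner ℝ (k - p) (k - p) = inner ℝ (k - p) k - inner ℝ (k - p) p := inner_sub_right _ _ _
  linarith

/-- Every point of a compact set lies in the closed convex hull of its farthest points. -/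
theorem dg_far_dense [CompleteSpace W] (K : Set W) (hK : IsCompact K) (q : W) (hq : q ∈ K) :
    q ∈ closure (convexHull ℝ (dgFar K)) := by
  by_contra hnot
  obtain ⟨f, β, hf, hβ⟩ := geometric_hahn_banach_closed_point
    (convex_convexHull ℝ (dgFar K)).closure isClosed_closure hnot
  set ν : W := (InnerProductSpace.toDual ℝ W).symm f with hν
  have hfν : ∀ x, f x = inner ℝ ν x := fun x => (InnerProductSpace.toDual_symm_apply).symm
  obtain ⟨B, hB⟩ := hK.isBounded.exists_norm_le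
  have hd : 0 < f q - β := by linarith
  set R : ℝ := (B ^ 2 + 1) / (f q - β) with hR
  have hRpos : 0 < R := by positivity
  have hcont : ContinuousOn (fun y : W => ‖y + R • ν‖) K :=
    (continuous_norm.comp (continuous_id.add continuous_const)).continuousOn
  obtain ⟨k, hkK, hkmax⟩ := hK.exists_isMaxOn ⟨q, hq⟩ hcont
  have hkfar : k ∈ dgFar K := by
    refine ⟨hkK, -(R • ν), fun k' hk' => ?_⟩
    have := hkmax hk'
    simpa [sub_neg_eq_add] using this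
  have hfk : f k < β := hf k (subset_closure (subset_convexHull ℝ _ hkfar))
  have h1 : ‖q + R • ν‖ ≤ ‖k + R • ν‖ := hkmax hq
  have e : ∀ y : W, ‖y + R • ν‖ ^ 2 = ‖y‖ ^ 2 + 2 * R * f y + R ^ 2 * ‖ν‖ ^ 2 := by
    intro y
    rw [norm_add_sq_real, inner_smul_right, real_inner_comm, ← hfν, norm_smul, mul_pow,
      Real.norm_eq_abs, sq_abs]
    ring
  have h2 : ‖q + R • ν‖ ^ 2 ≤ ‖k + R • ν‖ ^ 2 := pow_le_pow_left₀ (norm_nonneg _) h1 2
  rw [e q, e k] at h2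
  have hkB : ‖k‖ ^ 2 ≤ B ^ 2 := pow_le_pow_left₀ (norm_nonneg _) (hB k hkK) 2
  have hR2 : R * (f q - β) = B ^ 2 + 1 := by
    rw [hR]; field_simp
  nlinarith [sq_nonneg ‖q‖, mul_pos hRpos hd]

end far

section star

variable {V : Type*} [NormedAddCommGroup V] [NormedSpace ℝ V]

/-- In a Daugavet space: for a unit vector `x`, a closed finite-codimensional subspace `S` and
`η > 0` there is a unit vector `y ∈ S` with `‖x + 2 y‖ ≤ 1 + η`. -/
theorem daugavet_star (hD : HasDaugavetProperty V) (x : V) (hx : ‖x‖ = 1) (S : Submodule ℝ V)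
    (hS : IsClosed (S : Set V)) (hfd : FiniteDimensional ℝ (V ⧸ S)) (η : ℝ) (hη : 0 < η) :
    ∃ y ∈ S, ‖y‖ = 1 ∧ ‖x + (2 : ℝ) • y‖ ≤ 1 + η := by
  classical
  have : IsClosed (S : Set V) := hS
  wlog hη1 : η ≤ 1 generalizing η
  · obtain ⟨y, hy, hy1, hy2⟩ := this 1 one_pos le_rfl
    exact ⟨y, hy, hy1, hy2.trans (by linarith [not_le.1 hη1])⟩
  -- the finite-dimensional picture
  obtain ⟨n, ⟨T⟩⟩ : ∃ n : ℕ, Nonempty ((V ⧸ S) ≃L[ℝ] EuclideanSpace ℝ (Fin n)) :=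
    ⟨_, ⟨toEuclidean⟩⟩
  obtain ⟨Ψ, hΨ⟩ : ∃ Ψ : V →L[ℝ] EuclideanSpace ℝ (Fin n), ∀ v, T.symm (Ψ v) = S.mkQ v :=
    ⟨(T : (V ⧸ S) →L[ℝ] EuclideanSpace ℝ (Fin n)).comp S.mkQL, fun v => by simp⟩
  obtain ⟨C, hC0, hCle⟩ : ∃ C : ℝ, 0 ≤ C ∧ ∀ v, ‖T.symm v‖ ≤ C * ‖v‖ :=
    ⟨‖(T.symm : EuclideanSpace ℝ (Fin n) →L[ℝ] (V ⧸ S))‖,
      (T.symm : EuclideanSpace ℝ (Fin n) →L[ℝ] (V ⧸ S)).opNorm_nonneg,
      fun v => (T.symm : EuclideanSpace ℝ (Fin n) →L[ℝ] (V ⧸ S)).le_opNorm v⟩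
  obtain ⟨δ, hδ⟩ : ∃ δ : ℝ, δ = η / (16 * (C + 1)) := ⟨_, rfl⟩
  have hδpos : 0 < δ := by rw [hδ]; positivity
  have hδη : 2 * (C + 1) * δ = η / 8 := by
    rw [hδ]; field_simp; ring
  obtain ⟨α, hα⟩ : ∃ α : ℝ, α = δ ^ 2 / 2 := ⟨_, rfl⟩
  have hαpos : 0 < α := by rw [hα]; positivity
  obtain ⟨K, hKdef⟩ : ∃ K : Set (EuclideanSpace ℝ (Fin n)),
      K = closure (Ψ '' Metric.closedBall 0 1) := ⟨_, rfl⟩
  have hKsub : K ⊆ Metric.closedBall 0 ‖Ψ‖ := by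
    rw [hKdef]
    refine closure_minimal ?_ Metric.isClosed_closedBall
    rintro _ ⟨z, hz, rfl⟩
    rw [mem_closedBall_zero_iff] at hz ⊢
    calc ‖Ψ z‖ ≤ ‖Ψ‖ * ‖z‖ := Ψ.le_opNorm z
      _ ≤ ‖Ψ‖ * 1 := by gcongr
      _ = ‖Ψ‖ := mul_one _
  have hKcpt : IsCompact K :=
    Metric.isCompact_of_isClosed_isBounded (by rw [hKdef]; exact isClosed_closure)
      (Metric.isBounded_closedBall.subset hKsub)
  have hball : ∀ z : V, ‖z‖ ≤ 1 → Ψ z ∈ K := fun z hz => by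
    rw [hKdef]; exact subset_closure ⟨z, by simpa using hz, rfl⟩
  have hqK : Ψ x ∈ K := hball x hx.le
  -- approximate `Ψ x` by a convex combination of farthest points
  have hcl := dg_far_dense K hKcpt (Ψ x) hqK
  obtain ⟨c, hc, hcdist⟩ := Metric.mem_closure_iff.1 hcl δ hδpos
  obtain ⟨ι, _, kk, w, hrange, -, hwpos, hw1, hsum⟩ := eq_pos_convex_span_of_mem_convexHull hc
  have hfar : ∀ i, kk i ∈ dgFar K := fun i => hrange ⟨i, rfl⟩
  choose hkK pp hpp using hfar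
  -- the functionals
  obtain ⟨ξ, hξ⟩ : ∃ ξ : ι → (V →L[ℝ] ℝ), ∀ i z, ξ i z = inner ℝ (kk i - pp i) (Ψ z) :=
    ⟨fun i => (innerSL ℝ (kk i - pp i)).comp Ψ, fun i z => rfl⟩
  -- `σ i ≤ ‖ξ i‖`
  have hσ : ∀ i, inner ℝ (kk i - pp i) (kk i) ≤ ‖ξ i‖ := by
    intro i
    refine le_of_forall_pos_le_add fun ε₀ hε₀ => ?_
    have hk : kk i ∈ closure (Ψ '' Metric.closedBall 0 1) := by rw [← hKdef]; exact hkK i
    obtain ⟨_, ⟨z, hz, rfl⟩, hzd⟩ := Metric.mem_closure_iff.1 hk (ε₀ / (‖kk i - pp i‖ + 1))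
      (by positivity)
    rw [mem_closedBall_zero_iff] at hz
    have h1 : ξ i z ≤ ‖ξ i‖ := by
      calc ξ i z ≤ ‖ξ i z‖ := Real.le_norm_self _
        _ ≤ ‖ξ i‖ * ‖z‖ := (ξ i).le_opNorm z
        _ ≤ ‖ξ i‖ * 1 := by gcongr
        _ = ‖ξ i‖ := mul_one _
    have h2 : inner ℝ (kk i - pp i) (kk i) - inner ℝ (kk i - pp i) (Ψ z)
        = inner ℝ (kk i - pp i) (kk i - Ψ z) := (inner_sub_right _ _ _).symm
    have h3 : inner ℝ (kk i - pp i) (kk i - Ψ z) ≤ ‖kk i - pp i‖ * ‖kk i - Ψ z‖ :=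
      real_inner_le_norm _ _
    have h4 : ‖kk i - pp i‖ * ‖kk i - Ψ z‖ ≤ ε₀ := by
      rw [dist_eq_norm] at hzd
      calc ‖kk i - pp i‖ * ‖kk i - Ψ z‖
          ≤ ‖kk i - pp i‖ * (ε₀ / (‖kk i - pp i‖ + 1)) := by gcongr
        _ ≤ (‖kk i - pp i‖ + 1) * (ε₀ / (‖kk i - pp i‖ + 1)) := by
            gcongr; linarith
        _ = ε₀ := by field_simp
    rw [hξ] at h1
    linarith
  -- unit functionals
  obtain ⟨φ₀, hφ₀, -⟩ := exists_dual_vector ℝ x (by rw [hx]; exact one_ne_zero)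
  obtain ⟨φ, hφ, hφξ⟩ : ∃ φ : ι → (V →L[ℝ] ℝ), (∀ i, ‖φ i‖ = 1) ∧
      ∀ i z, ξ i z = ‖ξ i‖ * φ i z := by
    refine ⟨fun i => if ξ i = 0 then φ₀ else ‖ξ i‖⁻¹ • ξ i, fun i => ?_, fun i z => ?_⟩
    · by_cases h0 : ξ i = 0
      · simp only [h0, if_true]; exact hφ₀
      · simp only [h0, if_false]
        rw [norm_smul, norm_inv, norm_norm, inv_mul_cancel₀ (norm_ne_zero_iff.2 h0)]
    · by_cases h0 : ξ i = 0
      · simp [h0]
      · simp only [h0, if_false]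
        change ξ i z = ‖ξ i‖ * (‖ξ i‖⁻¹ * ξ i z)
        rw [← mul_assoc, mul_inv_cancel₀ (norm_ne_zero_iff.2 h0), one_mul]
  obtain ⟨M, hM0, hMi⟩ : ∃ M : ℝ, 0 ≤ M ∧ ∀ i, ‖ξ i‖ ≤ M :=
    ⟨∑ i, ‖ξ i‖, Finset.sum_nonneg fun i _ => norm_nonneg _, fun i =>
      Finset.single_le_sum (f := fun i => ‖ξ i‖) (fun j _ => norm_nonneg _) (Finset.mem_univ i)⟩
  obtain ⟨ε₂, hε₂pos, hε₂η, hε₂M⟩ : ∃ ε₂ : ℝ, 0 < ε₂ ∧ ε₂ ≤ η / 4 ∧ ε₂ * M < α := by
    refine ⟨min (η / 4) (α / (M + 1)), lt_min (by positivity) (by positivity),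
      min_le_left _ _, ?_⟩
    have h1 : min (η / 4) (α / (M + 1)) ≤ α / (M + 1) := min_le_right _ _
    calc min (η / 4) (α / (M + 1)) * M ≤ α / (M + 1) * M := by gcongr
      _ < α / (M + 1) * (M + 1) := by
          have : 0 < α / (M + 1) := by positivity
          nlinarith
      _ = α := by field_simp
  have hnx : ‖-x‖ = 1 := by rw [norm_neg, hx]
  obtain ⟨z, hz, hbig, -⟩ := dg_seq hD (-x) hnx φ hφ Finset.univ ε₂ hε₂pos
  have hz1 : ∀ i, ‖z i‖ ≤ 1 := fun i => (hz i (Finset.mem_univ i)).1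
  have hz2 : ∀ i, 1 - ε₂ ≤ φ i (z i) := fun i => (hz i (Finset.mem_univ i)).2
  have hconv := dg_convex (-x) hnx Finset.univ z (fun i _ => hz1 i) ε₂ hbig w
    (fun i _ => (hwpos i).le) hw1
  obtain ⟨zz, hzz⟩ : ∃ zz : V, zz = ∑ i, w i • z i := ⟨_, rfl⟩
  rw [← hzz] at hconv
  have hzznorm : ‖zz‖ ≤ 1 := by
    rw [hzz]
    calc ‖∑ i, w i • z i‖ ≤ ∑ i, ‖w i • z i‖ := norm_sum_le _ _
      _ ≤ ∑ i, w i := by
          refine Finset.sum_le_sum fun i _ => ?_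
          rw [norm_smul, Real.norm_of_nonneg (hwpos i).le]
          calc w i * ‖z i‖ ≤ w i * 1 :=
                mul_le_mul_of_nonneg_left (hz1 i) (hwpos i).le
            _ = w i := mul_one _
      _ = 1 := hw1
  -- each `Ψ (z i)` is close to `kk i`
  have hclose : ∀ i, ‖Ψ (z i) - kk i‖ ≤ δ := by
    intro i
    have h1 : inner ℝ (kk i - pp i) (kk i) - α < inner ℝ (kk i - pp i) (Ψ (z i)) := by
      rw [← hξ, hφξ]
      have h2 : ‖ξ i‖ * (1 - ε₂) ≤ ‖ξ i‖ * φ i (z i) :=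
        mul_le_mul_of_nonneg_left (hz2 i) (norm_nonneg _)
      have h3 : ε₂ * ‖ξ i‖ ≤ ε₂ * M := mul_le_mul_of_nonneg_left (hMi i) hε₂pos.le
      have := hσ i
      nlinarith
    have h2 := dg_slice_small K (kk i) (pp i) (hpp i) (Ψ (z i)) (hball _ (hz1 i)) α h1
    have h3 : ‖Ψ (z i) - kk i‖ ^ 2 < δ ^ 2 := by rw [hα] at h2; linarith
    exact (abs_le_of_sq_le_sq' h3.le hδpos.le).2
  have hΨzz : ‖Ψ zz - c‖ ≤ δ := by
    have e : Ψ zz - c = ∑ i, w i • (Ψ (z i) - kk i) := by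
      rw [hzz, map_sum, ← hsum, ← Finset.sum_sub_distrib]
      refine Finset.sum_congr rfl fun i _ => ?_
      rw [map_smul, smul_sub]
    rw [e]
    calc ‖∑ i, w i • (Ψ (z i) - kk i)‖ ≤ ∑ i, ‖w i • (Ψ (z i) - kk i)‖ := norm_sum_le _ _
      _ ≤ ∑ i, w i * δ := by
          refine Finset.sum_le_sum fun i _ => ?_
          rw [norm_smul, Real.norm_of_nonneg (hwpos i).le]
          exact mul_le_mul_of_nonneg_left (hclose i) (hwpos i).le
      _ = δ := by rw [← Finset.sum_mul, hw1, one_mul]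
  -- the difference `d = zz - x` is almost in `S`
  obtain ⟨d, hd⟩ : ∃ d : V, d = zz - x := ⟨_, rfl⟩
  have hΨd : ‖Ψ d‖ ≤ 2 * δ := by
    have e : Ψ d = (Ψ zz - c) + (c - Ψ x) := by rw [hd, map_sub]; abel
    rw [e]
    calc ‖(Ψ zz - c) + (c - Ψ x)‖ ≤ ‖Ψ zz - c‖ + ‖c - Ψ x‖ := norm_add_le _ _
      _ ≤ δ + δ := by
          have : ‖c - Ψ x‖ ≤ δ := by
            rw [← dist_eq_norm, dist_comm]; exact hcdist.le
          linarith
      _ = 2 * δ := by ring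
  have hmk : ‖(S.mkQ d : V ⧸ S)‖ ≤ C * (2 * δ) := by
    rw [← hΨ]
    calc ‖T.symm (Ψ d)‖ ≤ C * ‖Ψ d‖ := hCle _
      _ ≤ C * (2 * δ) := mul_le_mul_of_nonneg_left hΨd hC0
  obtain ⟨m, hm, hmn⟩ := Submodule.Quotient.norm_mk_lt (S.mkQ d : V ⧸ S) hδpos
  have hmnorm : ‖m‖ ≤ η / 8 := by
    have : ‖m‖ < C * (2 * δ) + δ := by linarith
    nlinarith
  obtain ⟨w', hw'⟩ : ∃ w' : V, w' = d - m := ⟨_, rfl⟩
  have hw'S : w' ∈ S := by
    have h1 : (Submodule.Quotient.mk m : V ⧸ S) = Submodule.Quotient.mk d := hm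
    have h2 := (Submodule.Quotient.eq S).1 h1
    have h3 : w' = -(m - d) := by rw [hw']; abel
    rw [h3]; exact S.neg_mem h2
  have hdnorm : 2 - 2 * ε₂ ≤ ‖d‖ := by
    have : d = -x + zz := by rw [hd]; abel
    rw [this]; exact hconv
  have hdle : ‖d‖ ≤ 2 := by
    rw [hd]
    calc ‖zz - x‖ ≤ ‖zz‖ + ‖x‖ := norm_sub_le _ _
      _ ≤ 1 + 1 := by rw [hx]; linarith
      _ = 2 := by norm_num
  have hw'lo : 2 - 2 * ε₂ - η / 8 ≤ ‖w'‖ := by
    have : ‖d‖ ≤ ‖w'‖ + ‖m‖ := by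
      have e : d = w' + m := by rw [hw']; abel
      calc ‖d‖ = ‖w' + m‖ := by rw [← e]
        _ ≤ ‖w'‖ + ‖m‖ := norm_add_le _ _
    linarith
  have hw'hi : ‖w'‖ ≤ 2 + η / 8 := by
    rw [hw']
    calc ‖d - m‖ ≤ ‖d‖ + ‖m‖ := norm_sub_le _ _
      _ ≤ 2 + η / 8 := by linarith
  have hw'pos : 0 < ‖w'‖ := by linarith
  refine ⟨‖w'‖⁻¹ • w', S.smul_mem _ hw'S, ?_, ?_⟩
  · rw [norm_smul, norm_inv, norm_norm, inv_mul_cancel₀ hw'pos.ne']
  · have e1 : x + (2 : ℝ) • (‖w'‖⁻¹ • w') = (zz - m) + (2 * ‖w'‖⁻¹ - 1) • w' := by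
      rw [smul_smul, sub_smul, one_smul, hw', hd]; abel
    have h1 : ‖zz - m‖ ≤ 1 + η / 8 := by
      calc ‖zz - m‖ ≤ ‖zz‖ + ‖m‖ := norm_sub_le _ _
        _ ≤ 1 + η / 8 := by linarith
    have h2 : ‖(2 * ‖w'‖⁻¹ - 1) • w'‖ = |2 - ‖w'‖| := by
      rw [norm_smul, Real.norm_eq_abs]
      have : (2 * ‖w'‖⁻¹ - 1) = (2 - ‖w'‖) / ‖w'‖ := by field_simp
      rw [this, abs_div, abs_of_pos hw'pos, div_mul_cancel₀ _ hw'pos.ne']
    have h3 : |2 - ‖w'‖| ≤ 2 * ε₂ + η / 8 := by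
      rw [abs_le]; constructor <;> linarith
    rw [e1]
    calc ‖(zz - m) + (2 * ‖w'‖⁻¹ - 1) • w'‖ ≤ ‖zz - m‖ + ‖(2 * ‖w'‖⁻¹ - 1) • w'‖ :=
          norm_add_le _ _
      _ ≤ (1 + η / 8) + (2 * ε₂ + η / 8) := by rw [h2]; linarith
      _ ≤ 1 + η := by linarith

end star

section moduli

variable {V : Type*} [NormedAddCommGroup V] [NormedSpace ℝ V]

/-- Upper bounds for the one-sided and the midpoint quantities in a Daugavet space. -/
theorem dg_upper (hD : HasDaugavetProperty V) (x : V) (hx : ‖x‖ = 1) (S : Submodule ℝ V)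
    (hS : IsClosed (S : Set V)) (hfd : FiniteDimensional ℝ (V ⧸ S)) (t : ℝ) (ht : 0 < t)
    (η : ℝ) (hη : 0 < η) :
    ∃ y ∈ S, ‖y‖ = 1 ∧ ‖x + t • y‖ - 1 ≤ max 0 (t - 2) + η ∧
      (‖x + t • y‖ + ‖x - t • y‖) / 2 - 1 ≤ max (t / 2) (t - 1) + η := by
  obtain ⟨y, hy, hy1, hy2⟩ := daugavet_star hD x hx S hS hfd η hη
  have hB : ‖x - t • y‖ ≤ 1 + t := by
    calc ‖x - t • y‖ ≤ ‖x‖ + ‖t • y‖ := norm_sub_le _ _
      _ = 1 + t := by rw [hx, norm_smul, hy1, mul_one, Real.norm_of_nonneg ht.le]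
  refine ⟨y, hy, hy1, ?_⟩
  rcases le_total t 2 with h2 | h2
  · have e : x + t • y = (1 - t / 2) • x + (t / 2) • (x + (2 : ℝ) • y) := by
      rw [smul_add, smul_smul, sub_smul, one_smul]
      have : t / 2 * 2 = t := by ring
      rw [this]; abel
    have hA : ‖x + t • y‖ ≤ 1 + η := by
      rw [e]
      calc ‖(1 - t / 2) • x + (t / 2) • (x + (2 : ℝ) • y)‖
          ≤ ‖(1 - t / 2) • x‖ + ‖(t / 2) • (x + (2 : ℝ) • y)‖ := norm_add_le _ _
        _ = (1 - t / 2) * 1 + (t / 2) * ‖x + (2 : ℝ) • y‖ := by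
            rw [norm_smul, norm_smul, hx, Real.norm_of_nonneg (by linarith),
              Real.norm_of_nonneg (by linarith)]
        _ ≤ (1 - t / 2) * 1 + (t / 2) * (1 + η) := by
            have : 0 ≤ t / 2 := by linarith
            nlinarith
        _ ≤ 1 + η := by nlinarith
    have m1 : (0 : ℝ) ≤ max 0 (t - 2) := le_max_left _ _
    have m2 : t / 2 ≤ max (t / 2) (t - 1) := le_max_left _ _
    constructor <;> linarith
  · have e : x + t • y = (x + (2 : ℝ) • y) + (t - 2) • y := by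
      rw [sub_smul]; abel
    have hA : ‖x + t • y‖ ≤ 1 + η + (t - 2) := by
      rw [e]
      calc ‖(x + (2 : ℝ) • y) + (t - 2) • y‖ ≤ ‖x + (2 : ℝ) • y‖ + ‖(t - 2) • y‖ :=
            norm_add_le _ _
        _ ≤ 1 + η + (t - 2) := by
            rw [norm_smul, hy1, mul_one, Real.norm_of_nonneg (by linarith)]; linarith
    have m1 : t - 2 ≤ max 0 (t - 2) := le_max_right _ _
    have m2 : t - 1 ≤ max (t / 2) (t - 1) := le_max_right _ _
    constructor <;> linarith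

/-- A Daugavet space has no equivalent asymptotically uniformly convex norm (generic form). -/
theorem dg_not_auc (hD : HasDaugavetProperty V) (N : V → ℝ)
    (hsub : ∀ x y : V, N (x + y) ≤ N x + N y) (hhom : ∀ (a : ℝ) (x : V), N (a • x) = |a| * N x)
    (a b : ℝ) (ha : 0 < a) (hab : ∀ x : V, a * ‖x‖ ≤ N x ∧ N x ≤ b * ‖x‖)
    (hauc : ∀ t : ℝ, 0 < t → ∃ c : ℝ, 0 < c ∧ ∀ x : V, N x = 1 →
      ∃ S : Submodule ℝ V, IsClosed (S : Set V) ∧ FiniteDimensional ℝ (V ⧸ S) ∧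
        ∀ y ∈ S, N y = 1 → c ≤ N (x + t • y) - 1) : False := by
  -- a unit vector
  have hid : ‖ContinuousLinearMap.id ℝ V‖ = 1 := by
    have := hD 0 0
    simpa using this
  obtain ⟨x₁, hx₁⟩ : ∃ x₁ : V, x₁ ≠ 0 := by
    by_contra hne
    have hne' : ∀ v : V, v = 0 := fun v => by_contra fun hv => hne ⟨v, hv⟩
    have : ContinuousLinearMap.id ℝ V = 0 := by
      ext v; simp [hne' v]
    rw [this, norm_zero] at hid
    exact zero_ne_one hid
  have hx₁pos : 0 < ‖x₁‖ := norm_pos_iff.2 hx₁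
  obtain ⟨x₀, hx₀⟩ : ∃ x₀ : V, ‖x₀‖ = 1 :=
    ⟨‖x₁‖⁻¹ • x₁, by rw [norm_smul, norm_inv, norm_norm, inv_mul_cancel₀ hx₁pos.ne']⟩
  have hb : 0 < b := by
    have := hab x₀
    rw [hx₀] at this
    linarith [this.1, this.2]
  have hN0 : N 0 = 0 := by
    have := hhom 0 (0 : V)
    simpa using this
  have hNpos : ∀ v : V, v ≠ 0 → 0 < N v := fun v hv =>
    lt_of_lt_of_le (mul_pos ha (norm_pos_iff.2 hv)) (hab v).1
  have ht : 0 < 2 * a / b := by positivity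
  obtain ⟨c, hc, hcS⟩ := hauc (2 * a / b) ht
  -- the iteration
  have iter : ∀ h : ℕ, ∃ s : V, s ≠ 0 ∧ ‖s‖ ≤ (1 + c / 2) ^ h ∧ (1 + c) ^ h * a ≤ N s := by
    intro h
    induction h with
    | zero =>
      refine ⟨x₀, ?_, by simp [hx₀], ?_⟩
      · intro h0; rw [h0, norm_zero] at hx₀; exact zero_ne_one hx₀
      · have := (hab x₀).1
        rw [hx₀] at this
        simpa using this
    | succ h ih =>
      obtain ⟨s, hs0, hs1, hs2⟩ := ih
      have hNs : 0 < N s := hNpos s hs0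
      have hspos : 0 < ‖s‖ := norm_pos_iff.2 hs0
      have hx' : N ((N s)⁻¹ • s) = 1 := by
        rw [hhom, abs_of_pos (inv_pos.2 hNs), inv_mul_cancel₀ hNs.ne']
      obtain ⟨S, hScl, hSfd, hS⟩ := hcS _ hx'
      have hunit : ‖(‖s‖⁻¹ • s)‖ = 1 := by
        rw [norm_smul, norm_inv, norm_norm, inv_mul_cancel₀ hspos.ne']
      obtain ⟨y, hyS, hy1, hy2⟩ := daugavet_star hD _ hunit S hScl hSfd (c / 2) (by positivity)
      have hy0 : y ≠ 0 := by
        intro h0; rw [h0, norm_zero] at hy1; exact zero_ne_one hy1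
      have hNy : 0 < N y := hNpos y hy0
      have hNya : a ≤ N y := by
        have := (hab y).1; rw [hy1, mul_one] at this; exact this
      have hyhat : N ((N y)⁻¹ • y) = 1 := by
        rw [hhom, abs_of_pos (inv_pos.2 hNy), inv_mul_cancel₀ hNy.ne']
      have hc1 := hS _ (S.smul_mem _ hyS) hyhat
      -- the new point
      obtain ⟨s', hs'⟩ : ∃ s' : V, s' = s + (2 * ‖s‖) • y := ⟨_, rfl⟩
      obtain ⟨τ, hτ⟩ : ∃ τ : ℝ, τ = 2 * ‖s‖ * N y / N s := ⟨_, rfl⟩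
      have hτt : 2 * a / b ≤ τ := by
        rw [hτ, div_le_div_iff₀ hb hNs]
        have h1 := (hab s).2
        nlinarith [mul_pos ha hspos, mul_nonneg hspos.le (sub_nonneg.2 hNya)]
      have hτpos : 0 < τ := lt_of_lt_of_le ht hτt
      -- convexity
      obtain ⟨G, hG⟩ : ∃ G : ℝ, G = N ((N s)⁻¹ • s + τ • ((N y)⁻¹ • y)) := ⟨_, rfl⟩
      have hconv : N ((N s)⁻¹ • s + (2 * a / b) • ((N y)⁻¹ • y))
          ≤ (1 - 2 * a / b / τ) * 1 + (2 * a / b / τ) * G := by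
        have hr0 : 0 ≤ 2 * a / b / τ := by positivity
        have hr1 : 2 * a / b / τ ≤ 1 := by
          rw [div_le_one hτpos]; exact hτt
        have e : (N s)⁻¹ • s + (2 * a / b) • ((N y)⁻¹ • y)
            = (1 - 2 * a / b / τ) • ((N s)⁻¹ • s)
              + (2 * a / b / τ) • ((N s)⁻¹ • s + τ • ((N y)⁻¹ • y)) := by
          rw [smul_add, sub_smul, one_smul, smul_smul (2 * a / b / τ) τ,
            div_mul_cancel₀ _ hτpos.ne']
          abel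
        rw [e]
        calc N ((1 - 2 * a / b / τ) • ((N s)⁻¹ • s)
              + (2 * a / b / τ) • ((N s)⁻¹ • s + τ • ((N y)⁻¹ • y)))
            ≤ N ((1 - 2 * a / b / τ) • ((N s)⁻¹ • s))
              + N ((2 * a / b / τ) • ((N s)⁻¹ • s + τ • ((N y)⁻¹ • y))) := hsub _ _
          _ = (1 - 2 * a / b / τ) * 1 + (2 * a / b / τ) * G := by
              rw [hhom (1 - 2 * a / b / τ), hhom (2 * a / b / τ), hx', ← hG,
                abs_of_nonneg (by linarith), abs_of_nonneg hr0]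
      have hG1 : 1 + c ≤ G := by
        have hr0 : 0 < 2 * a / b / τ := by positivity
        have hr1 : 2 * a / b / τ ≤ 1 := by
          rw [div_le_one hτpos]; exact hτt
        have h3 : 1 + c ≤ (1 - 2 * a / b / τ) * 1 + (2 * a / b / τ) * G := by linarith
        nlinarith
      have hs'G : s' = (N s) • ((N s)⁻¹ • s + τ • ((N y)⁻¹ • y)) := by
        rw [hs', smul_add, smul_smul, mul_inv_cancel₀ hNs.ne', one_smul, smul_smul, smul_smul]
        congr 2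
        rw [hτ]; field_simp
      have hNs' : N s' = N s * G := by
        rw [hs'G, hhom, abs_of_pos hNs, hG]
      have hs'norm : s' = ‖s‖ • (‖s‖⁻¹ • s + (2 : ℝ) • y) := by
        rw [hs', smul_add, smul_smul, mul_inv_cancel₀ hspos.ne', one_smul, smul_smul]
        congr 2
        ring
      refine ⟨s', ?_, ?_, ?_⟩
      · intro h0
        rw [h0, hN0] at hNs'
        nlinarith
      · rw [hs'norm, norm_smul, norm_norm, pow_succ]
        have : 0 ≤ (1 + c / 2) ^ h := by positivity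
        nlinarith
      · rw [hNs', pow_succ]
        have : 0 ≤ (1 + c) ^ h * a := by positivity
        nlinarith
  -- contradiction
  have hρ : 1 < (1 + c) / (1 + c / 2) := by
    rw [lt_div_iff₀ (by positivity)]; linarith
  obtain ⟨h, hh⟩ := pow_unbounded_of_one_lt (b / a) hρ
  obtain ⟨s, -, hs1, hs2⟩ := iter h
  have h1 : (1 + c) ^ h * a ≤ b * (1 + c / 2) ^ h :=
    hs2.trans ((hab s).2.trans (mul_le_mul_of_nonneg_left hs1 hb.le))
  rw [div_pow, div_lt_div_iff₀ ha (by positivity)] at hh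
  linarith

end moduli

/-- The Daugavet conjuncts of S0167 for a bundled space: the upper bounds for the midpoint and
the one-sided moduli and the absence of equivalent AUC norms. -/
theorem daugavet_moduli (E : RealBanach)
    (hD : letI := E.normed; letI := E.space; HasDaugavetProperty E.X) :
    (∀ t : ℝ, 0 < t → E.MidpointModulusLE E.norm t (max (t / 2) (t - 1)) ∧
      E.OneSidedModulusLE E.norm t (max 0 (t - 2))) ∧
    ∀ N : E.X → ℝ, E.IsEquivNorm N → ¬ E.IsAUC N := by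
  letI := E.normed; letI := E.space
  refine ⟨fun t ht => ⟨?_, ?_⟩, ?_⟩
  · intro x hx F hF η hη
    obtain ⟨S, rfl, hcl, hfd⟩ := hF
    obtain ⟨y, hy, hy1, -, h2⟩ := dg_upper hD x hx S hcl hfd t ht η hη
    exact ⟨y, hy, hy1, h2⟩
  · intro x hx F hF η hη
    obtain ⟨S, rfl, hcl, hfd⟩ := hF
    obtain ⟨y, hy, hy1, h1, -⟩ := dg_upper hD x hx S hcl hfd t ht η hη
    exact ⟨y, hy, hy1, h1⟩
  · intro N hN hauc
    obtain ⟨hsub, hhom, a, b, ha, hab⟩ := hN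
    refine dg_not_auc hD N hsub hhom a b ha hab fun t ht => ?_
    obtain ⟨c, hc, h⟩ := hauc t ht
    refine ⟨c, hc, fun x hx => ?_⟩
    obtain ⟨F, ⟨S, rfl, hcl, hfd⟩, hF⟩ := h x hx
    exact ⟨S, hcl, hfd, hF⟩

end Crest.Agent.S0167
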