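import Mathlib
import Crest.Prelude.Def_DaugavetL1

set_option autoImplicit false
open MeasureTheory

namespace Crest.Agent.S0167

variable {Ω : Type} [MeasurableSpace Ω]

/-- Absolute continuity of the integral of a single integrable function. -/
theorem net_ui (P : Measure Ω) (f : Ω → ℝ) (hf : Integrable f P) (η : ℝ) (hη : 0 < η) :
    ∃ δ : ℝ, 0 < δ ∧ ∀ A : Set Ω, P A < ENNReal.ofReal δ → ∫ z in A, |f z| ∂P < η := by
  have hfin : ∫⁻ z, ‖f z‖ₑ ∂P ≠ ⊤ := (hasFiniteIntegral_iff_enorm.mp hf.2).ne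
  obtain ⟨δ', hδ'pos, hδ'⟩ := exists_pos_setLIntegral_lt_of_measure_lt hfin
    (ε := ENNReal.ofReal η) (by simpa using hη)
  obtain ⟨δ, hδpos, hδle⟩ : ∃ δ : ℝ, 0 < δ ∧ ENNReal.ofReal δ ≤ δ' := by
    by_cases htop : δ' = ⊤
    · exact ⟨1, one_pos, by rw [htop]; exact le_top⟩
    · refine ⟨δ'.toReal, ENNReal.toReal_pos hδ'pos.ne' htop, ?_⟩
      rw [ENNReal.ofReal_toReal htop]
  refine ⟨δ, hδpos, fun A hA => ?_⟩
  have h1 := hδ' A (lt_of_lt_of_le hA hδle)
  have h2 : ∫ z in A, |f z| ∂P = (∫⁻ z in A, ‖f z‖ₑ ∂P).toReal := by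
    have := integral_norm_eq_lintegral_enorm (μ := P.restrict A) hf.aestronglyMeasurable.restrict
    simpa [Real.norm_eq_abs] using this
  rw [h2]
  exact (ENNReal.toReal_lt_of_lt_ofReal h1)

/-- A two-valued sign function. -/
noncomputable def net_sgn (r : ℝ) : ℝ := if 0 ≤ r then 1 else -1

theorem net_sgn_measurable : Measurable net_sgn :=
  Measurable.ite (measurableSet_le measurable_const measurable_id) measurable_const
    measurable_const

theorem net_sgn_abs (r : ℝ) : |net_sgn r| = 1 := by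
  unfold net_sgn; split_ifs <;> simp

theorem net_pointwise (y g : ℝ) : |y| ≤ net_sgn g * y + 2 * |y - g| := by
  unfold net_sgn
  split_ifs with h
  · rcases le_total 0 y with hy | hy
    · rw [abs_of_nonneg hy]; have := abs_nonneg (y - g); linarith
    · rw [abs_of_nonpos hy, abs_of_nonpos (by linarith : y - g ≤ 0)]; linarith
  · rw [not_le] at h
    rcases le_total 0 y with hy | hy
    · rw [abs_of_nonneg hy, abs_of_nonneg (by linarith : 0 ≤ y - g)]; linarith
    · rw [abs_of_nonpos hy]; have := abs_nonneg (y - g); linarith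

theorem net_sgn_mul_le (g y : ℝ) : |net_sgn g * y| = |y| := by
  rw [abs_mul, net_sgn_abs, one_mul]


/-- Splitting `∫ |f|` along a measurable set. -/
theorem net_split (P : Measure Ω) (f : Ω → ℝ) (hf : Integrable f P) (A : Set Ω)
    (hA : MeasurableSet A) :
    ∫ z, f z ∂P = ∫ z in A, f z ∂P + ∫ z in Aᶜ, f z ∂P :=
  (integral_add_compl hA hf).symm

/-- (R1) lower bound for the sum of the two norms. -/
theorem net_R1 (P : Measure Ω) (f₁ f₂ : Ω → ℝ) (h₁ : Integrable f₁ P) (h₂ : Integrable f₂ P)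
    (A : Set Ω) (hA : MeasurableSet A) (t : ℝ) (ht : 0 ≤ t) :
    2 * (∫ z, |f₁ z| ∂P - ∫ z in A, |f₁ z| ∂P) + 2 * t * ∫ z in A, |f₂ z| ∂P
      ≤ ∫ z, |f₁ z + t * f₂ z| ∂P + ∫ z, |f₁ z - t * f₂ z| ∂P := by
  have hp : Integrable (fun z => |f₁ z + t * f₂ z|) P := (h₁.add (h₂.const_mul t)).abs
  have hm : Integrable (fun z => |f₁ z - t * f₂ z|) P := (h₁.sub (h₂.const_mul t)).abs
  have hF : Integrable (fun z => |f₁ z + t * f₂ z| + |f₁ z - t * f₂ z|) P := hp.add hm
  rw [← integral_add hp hm, net_split P _ hF A hA, net_split P _ h₁.abs A hA]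
  have hA1 : ∫ z in A, 2 * t * |f₂ z| ∂P ≤ ∫ z in A, (|f₁ z + t * f₂ z| + |f₁ z - t * f₂ z|) ∂P := by
    refine setIntegral_mono_on (h₂.abs.const_mul (2 * t)).integrableOn hF.integrableOn hA ?_
    intro z _
    have e : 2 * t * |f₂ z| = |(f₁ z + t * f₂ z) - (f₁ z - t * f₂ z)| := by
      rw [show (f₁ z + t * f₂ z) - (f₁ z - t * f₂ z) = 2 * t * f₂ z by ring, abs_mul,
        abs_of_nonneg (by positivity : (0:ℝ) ≤ 2 * t)]
    rw [e]
    exact abs_sub _ _
  have hA2 : ∫ z in Aᶜ, 2 * |f₁ z| ∂P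
      ≤ ∫ z in Aᶜ, (|f₁ z + t * f₂ z| + |f₁ z - t * f₂ z|) ∂P := by
    refine setIntegral_mono_on (h₁.abs.const_mul 2).integrableOn hF.integrableOn hA.compl ?_
    intro z _
    have e : 2 * |f₁ z| = |(f₁ z + t * f₂ z) + (f₁ z - t * f₂ z)| := by
      rw [show (f₁ z + t * f₂ z) + (f₁ z - t * f₂ z) = 2 * f₁ z by ring, abs_mul,
        abs_of_nonneg (by norm_num : (0:ℝ) ≤ 2)]
    rw [e]
    exact abs_add_le _ _
  rw [integral_const_mul] at hA1 hA2
  linarith

/-- (R2) lower bound for one norm. -/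
theorem net_R2 (P : Measure Ω) (f₁ f₂ : Ω → ℝ) (h₁ : Integrable f₁ P) (h₂ : Integrable f₂ P)
    (A : Set Ω) (hA : MeasurableSet A) (t : ℝ) (ht : 0 ≤ t) :
    ∫ z, |f₁ z| ∂P - 2 * ∫ z in A, |f₁ z| ∂P - t * ∫ z, |f₂ z| ∂P
        + 2 * t * ∫ z in A, |f₂ z| ∂P
      ≤ ∫ z, |f₁ z + t * f₂ z| ∂P := by
  have hp : Integrable (fun z => |f₁ z + t * f₂ z|) P := (h₁.add (h₂.const_mul t)).abs
  rw [net_split P _ hp A hA, net_split P _ h₁.abs A hA, net_split P _ h₂.abs A hA]
  have hA1 : ∫ z in A, (t * |f₂ z| - |f₁ z|) ∂P ≤ ∫ z in A, |f₁ z + t * f₂ z| ∂P := by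
    refine setIntegral_mono_on ((h₂.abs.const_mul t).sub h₁.abs).integrableOn hp.integrableOn hA ?_
    intro z _
    have e : t * |f₂ z| = |t * f₂ z| := by rw [abs_mul, abs_of_nonneg ht]
    rw [e]
    have := abs_sub_abs_le_abs_sub (t * f₂ z) (-(f₁ z))
    rw [abs_neg, sub_neg_eq_add, add_comm (t * f₂ z)] at this
    exact this
  have hA2 : ∫ z in Aᶜ, (|f₁ z| - t * |f₂ z|) ∂P ≤ ∫ z in Aᶜ, |f₁ z + t * f₂ z| ∂P := by
    refine setIntegral_mono_on (h₁.abs.sub (h₂.abs.const_mul t)).integrableOn hp.integrableOn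
      hA.compl ?_
    intro z _
    have e : t * |f₂ z| = |t * f₂ z| := by rw [abs_mul, abs_of_nonneg ht]
    rw [e]
    have := abs_sub_abs_le_abs_sub (f₁ z) (-(t * f₂ z))
    rw [abs_neg, sub_neg_eq_add] at this
    exact this
  rw [integral_sub (h₂.abs.const_mul t).integrableOn h₁.abs.integrableOn,
    integral_const_mul] at hA1
  rw [integral_sub h₁.abs.integrableOn (h₂.abs.const_mul t).integrableOn,
    integral_const_mul] at hA2
  linarith

/-- (K) concentration of half of the mass on the set where `f` is far from `g`. -/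
theorem net_K (P : Measure Ω) [IsProbabilityMeasure P] (f g : Ω → ℝ) (hf : Integrable f P)
    (hgm : Measurable g) (hfm : Measurable f)
    (hzero : ∫ z, net_sgn (g z) * f z ∂P = 0) (a : ℝ) (ha : 0 ≤ a) :
    (∫ z, |f z| ∂P - 2 * a) / 2 ≤ ∫ z in {z | a < |f z - g z|}, |f z| ∂P := by
  have hA : MeasurableSet {z | a < |f z - g z|} :=
    measurableSet_lt measurable_const (hfm.sub hgm).abs
  obtain ⟨A, hAdef⟩ : ∃ A : Set Ω, A = {z | a < |f z - g z|} := ⟨_, rfl⟩
  rw [← hAdef] at hA ⊢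
  have hσf : Integrable (fun z => net_sgn (g z) * f z) P := by
    refine Integrable.mono' hf.abs
      ((net_sgn_measurable.comp hgm).mul hfm).aestronglyMeasurable
      (Filter.Eventually.of_forall fun z => ?_)
    rw [Real.norm_eq_abs, net_sgn_mul_le]
  have hsplit := net_split P _ hσf A hA
  rw [hzero] at hsplit
  have hsplit2 := net_split P _ hf.abs A hA
  -- on the complement
  have hc : ∫ z in Aᶜ, |f z| ∂P ≤ ∫ z in Aᶜ, (net_sgn (g z) * f z + 2 * a) ∂P := by
    refine setIntegral_mono_on hf.abs.integrableOn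
      (hσf.add (integrable_const (2 * a))).integrableOn hA.compl ?_
    intro z hz
    have hz' : |f z - g z| ≤ a := by
      rw [hAdef] at hz
      simpa using hz
    have := net_pointwise (f z) (g z)
    linarith
  have hc2 : ∫ z in Aᶜ, (net_sgn (g z) * f z + 2 * a) ∂P
      ≤ ∫ z in Aᶜ, net_sgn (g z) * f z ∂P + 2 * a := by
    rw [integral_add hσf.integrableOn (integrable_const (2 * a)).integrableOn]
    have h1 : ∫ _z in Aᶜ, (2 * a) ∂P = (P.restrict Aᶜ).real Set.univ * (2 * a) := by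
      rw [integral_const, smul_eq_mul]
    have h2 : (P.restrict Aᶜ).real Set.univ ≤ 1 := by
      rw [measureReal_def, Measure.restrict_apply MeasurableSet.univ, Set.univ_inter]
      have : P Aᶜ ≤ 1 := prob_le_one
      exact ENNReal.toReal_le_of_le_ofReal zero_le_one (by simpa using this)
    have h3 : 0 ≤ (P.restrict Aᶜ).real Set.univ := measureReal_nonneg
    rw [h1]
    nlinarith
  have hAin : -(∫ z in A, net_sgn (g z) * f z ∂P) ≤ ∫ z in A, |f z| ∂P := by
    rw [← integral_neg]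
    refine setIntegral_mono_on hσf.neg.integrableOn hf.abs.integrableOn hA ?_
    intro z _
    have := neg_abs_le (net_sgn (g z) * f z)
    rw [net_sgn_mul_le] at this
    linarith
  linarith


theorem net_int (P : Measure Ω) (g u : Lp ℝ 1 P) :
    Integrable (fun z => net_sgn (g z) * u z) P := by
  refine Integrable.mono' (L1.integrable_coeFn u).abs
    ((net_sgn_measurable.comp (Lp.stronglyMeasurable g).measurable).mul
      (Lp.stronglyMeasurable u).measurable).aestronglyMeasurable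
    (Filter.Eventually.of_forall fun z => ?_)
  rw [Real.norm_eq_abs, net_sgn_mul_le]

/-- The functional `u ↦ ∫ sgn(g) · u` on `L¹`. -/
noncomputable def net_phi (P : Measure Ω) (g : Lp ℝ 1 P) : Lp ℝ 1 P →ₗ[ℝ] ℝ where
  toFun u := ∫ z, net_sgn (g z) * u z ∂P
  map_add' u v := by
    rw [← integral_add (net_int P g u) (net_int P g v)]
    refine integral_congr_ae ?_
    filter_upwards [Lp.coeFn_add u v] with z hz
    rw [hz, Pi.add_apply, mul_add]
  map_smul' c u := by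
    simp only [RingHom.id_apply, smul_eq_mul]
    rw [← integral_const_mul]
    refine integral_congr_ae ?_
    filter_upwards [Lp.coeFn_smul c u] with z hz
    rw [hz, Pi.smul_apply, smul_eq_mul]
    ring

theorem net_phi_apply (P : Measure Ω) (g u : Lp ℝ 1 P) :
    net_phi P g u = ∫ z, net_sgn (g z) * u z ∂P := rfl

theorem net_norm_eq (P : Measure Ω) (u : Lp ℝ 1 P) : ‖u‖ = ∫ z, |u z| ∂P := by
  rw [L1.norm_eq_integral_norm]
  simp [Real.norm_eq_abs]

theorem net_phi_bound (P : Measure Ω) (g u : Lp ℝ 1 P) : ‖net_phi P g u‖ ≤ 1 * ‖u‖ := by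
  rw [one_mul, net_phi_apply, net_norm_eq, Real.norm_eq_abs]
  calc |∫ z, net_sgn (g z) * u z ∂P| ≤ ∫ z, |net_sgn (g z) * u z| ∂P := abs_integral_le_integral_abs
    _ = ∫ z, |u z| ∂P := by simp only [net_sgn_mul_le]

theorem net_phi_continuous (P : Measure Ω) (g : Lp ℝ 1 P) : Continuous (net_phi P g) :=
  AddMonoidHomClass.continuous_of_bound (net_phi P g) 1 (net_phi_bound P g)

/-- The finite-codimensional subspace cut out by the functionals of a finite net. -/
noncomputable def net_sub (P : Measure Ω) (E : Submodule ℝ (Lp ℝ 1 P)) (s : Finset (Lp ℝ 1 P)) :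
    Submodule ℝ E :=
  LinearMap.ker ((LinearMap.pi (fun g : s => net_phi P g.1)).comp E.subtype)

theorem net_mem_sub (P : Measure Ω) (E : Submodule ℝ (Lp ℝ 1 P)) (s : Finset (Lp ℝ 1 P))
    (y : E) : y ∈ net_sub P E s ↔ ∀ g ∈ s, net_phi P g (y : Lp ℝ 1 P) = 0 := by
  unfold net_sub
  rw [LinearMap.mem_ker]
  constructor
  · intro h g hg
    have := congrFun h ⟨g, hg⟩
    simpa using this
  · intro h
    funext g
    simpa using h g.1 g.2

theorem net_sub_closed (P : Measure Ω) (E : Submodule ℝ (Lp ℝ 1 P)) (s : Finset (Lp ℝ 1 P)) :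
    IsClosed (net_sub P E s : Set E) := by
  have hcont : Continuous (fun y : E => fun g : s => net_phi P g.1 (y : Lp ℝ 1 P)) :=
    continuous_pi fun g => (net_phi_continuous P g.1).comp continuous_subtype_val
  have : (net_sub P E s : Set E)
      = (fun y : E => fun g : s => net_phi P g.1 (y : Lp ℝ 1 P)) ⁻¹' {0} := by
    ext y
    simp only [SetLike.mem_coe, net_mem_sub, Set.mem_preimage, Set.mem_singleton_iff]
    constructor
    · intro h
      funext g
      exact h g.1 g.2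
    · intro h g hg
      exact congrFun h ⟨g, hg⟩
  rw [this]
  exact isClosed_singleton.preimage hcont

theorem net_sub_findim (P : Measure Ω) (E : Submodule ℝ (Lp ℝ 1 P)) (s : Finset (Lp ℝ 1 P)) :
    FiniteDimensional ℝ (E ⧸ net_sub P E s) := by
  unfold net_sub
  exact LinearEquiv.finiteDimensional
    (((LinearMap.pi (fun g : s => net_phi P g.1)).comp E.subtype).quotKerEquivRange).symm


open Crest.AnalysisR Crest.AnalysisR.L1Subspace

/-- Core: a closed finite-codimensional subspace all of whose unit vectors carry almost half of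
their mass on a set where the fixed function `x` has small mass. -/
theorem net_core (P : Measure Ω) [IsProbabilityMeasure P] (E : Submodule ℝ (Lp ℝ 1 P))
    (htb : UnitBallTotallyBoundedInMeasure P E) (x : Lp ℝ 1 P) (κ : ℝ) (hκ : 0 < κ) :
    ∃ S : Submodule ℝ E, IsClosed (S : Set E) ∧ FiniteDimensional ℝ (E ⧸ S) ∧
      ∀ y : E, y ∈ S → ‖y‖ = 1 → ∃ A : Set Ω, MeasurableSet A ∧
        ∫ z in A, |x z| ∂P ≤ κ ∧ 1 / 2 - κ ≤ ∫ z in A, |(y : Lp ℝ 1 P) z| ∂P := by
  obtain ⟨δ, hδpos, hδ⟩ := net_ui P x (L1.integrable_coeFn x) κ hκ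
  obtain ⟨ε, hεdef⟩ : ∃ ε : ℝ, ε = min δ κ := ⟨_, rfl⟩
  have hεpos : 0 < ε := by rw [hεdef]; exact lt_min hδpos hκ
  obtain ⟨s, hs, hnet⟩ := htb ε hεpos
  refine ⟨net_sub P E s, net_sub_closed P E s, net_sub_findim P E s, ?_⟩
  intro y hyS hy1
  obtain ⟨g, hgs, hdist⟩ := hnet (y : Lp ℝ 1 P) y.2 (by rw [← Submodule.coe_norm, hy1])
  unfold measureDist at hdist
  have hne : {a : ℝ | 0 < a ∧ P {z | a < abs (((y : Lp ℝ 1 P) : Ω → ℝ) z - (g : Ω → ℝ) z)}
      < ENNReal.ofReal a}.Nonempty := by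
    refine ⟨2, by norm_num, ?_⟩
    calc P {z | (2:ℝ) < abs (((y : Lp ℝ 1 P) : Ω → ℝ) z - (g : Ω → ℝ) z)} ≤ 1 := prob_le_one
      _ < ENNReal.ofReal 2 := by
        rw [show (1 : ENNReal) = ENNReal.ofReal 1 by simp]
        exact (ENNReal.ofReal_lt_ofReal_iff (by norm_num)).mpr (by norm_num)
  obtain ⟨a, ⟨hapos, haP⟩, haε⟩ := exists_lt_of_csInf_lt hne hdist
  have hfm : Measurable ((y : Lp ℝ 1 P) : Ω → ℝ) := (Lp.stronglyMeasurable _).measurable
  have hgm : Measurable (g : Ω → ℝ) := (Lp.stronglyMeasurable _).measurable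
  refine ⟨{z | a < abs (((y : Lp ℝ 1 P) : Ω → ℝ) z - (g : Ω → ℝ) z)},
    measurableSet_lt measurable_const (hfm.sub hgm).abs, ?_, ?_⟩
  · refine (hδ _ (lt_of_lt_of_le haP (ENNReal.ofReal_le_ofReal ?_))).le
    rw [hεdef] at haε
    exact (haε.trans_le (min_le_left _ _)).le
  · have hzero : ∫ z, net_sgn ((g : Ω → ℝ) z) * ((y : Lp ℝ 1 P) : Ω → ℝ) z ∂P = 0 :=
      (net_mem_sub P E s y).mp hyS g hgs
    have hK := net_K P ((y : Lp ℝ 1 P) : Ω → ℝ) (g : Ω → ℝ) (L1.integrable_coeFn _) hgm hfm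
      hzero a hapos.le
    have hnorm : ∫ z, |((y : Lp ℝ 1 P) : Ω → ℝ) z| ∂P = 1 := by
      rw [← net_norm_eq, ← Submodule.coe_norm, hy1]
    rw [hnorm] at hK
    have : a < κ := by
      rw [hεdef] at haε
      exact haε.trans_le (min_le_right _ _)
    linarith


/-- Norm of `x + t y` and `x - t y` in `L¹` as integrals of representatives. -/
theorem net_norm_add (P : Measure Ω) (x y : Lp ℝ 1 P) (t : ℝ) :
    ‖x + t • y‖ = ∫ z, |x z + t * y z| ∂P := by
  rw [net_norm_eq]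
  refine integral_congr_ae ?_
  filter_upwards [Lp.coeFn_add x (t • y), Lp.coeFn_smul t y] with z h1 h2
  rw [h1, Pi.add_apply, h2, Pi.smul_apply, smul_eq_mul]

theorem net_norm_sub (P : Measure Ω) (x y : Lp ℝ 1 P) (t : ℝ) :
    ‖x - t • y‖ = ∫ z, |x z - t * y z| ∂P := by
  rw [net_norm_eq]
  refine integral_congr_ae ?_
  filter_upwards [Lp.coeFn_sub x (t • y), Lp.coeFn_smul t y] with z h1 h2
  rw [h1, Pi.sub_apply, h2, Pi.smul_apply, smul_eq_mul]

/-- The combined estimate for unit `x`, `y` in `L¹` and a set `A`. -/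
theorem net_est (P : Measure Ω) (x y : Lp ℝ 1 P) (hx : ‖x‖ = 1) (hy : ‖y‖ = 1) (t : ℝ)
    (ht : 0 < t) (κ : ℝ) (A : Set Ω) (hA : MeasurableSet A)
    (hxA : ∫ z in A, |x z| ∂P ≤ κ) (hyA : 1 / 2 - κ ≤ ∫ z in A, |y z| ∂P) :
    max (t / 2) (t - 1) - (1 + t) * κ ≤ (‖x + t • y‖ + ‖x - t • y‖) / 2 - 1 ∧
    max 0 (t - 2) - 2 * (1 + t) * κ ≤ ‖x + t • y‖ - 1 := by
  have hxi := L1.integrable_coeFn x
  have hyi := L1.integrable_coeFn y
  have h1 := net_R1 P x y hxi hyi A hA t ht.le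
  have h2 := net_R2 P x y hxi hyi A hA t ht.le
  rw [← net_norm_add, ← net_norm_sub, ← net_norm_eq, hx] at h1
  rw [← net_norm_add, ← net_norm_eq, ← net_norm_eq, hx, hy] at h2
  have hxA0 : 0 ≤ ∫ z in A, |x z| ∂P := integral_nonneg fun z => abs_nonneg _
  have hκ : 0 ≤ κ := hxA0.trans hxA
  have htri : 2 * t ≤ ‖x + t • y‖ + ‖x - t • y‖ := by
    have h := norm_sub_le (x + t • y) (x - t • y)
    have e : x + t • y - (x - t • y) = (2 * t) • y := by
      rw [mul_smul, two_smul]; abel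
    rw [e, norm_smul, hy, mul_one, Real.norm_eq_abs, abs_of_pos (by positivity)] at h
    exact h
  have htri2 : t - 1 ≤ ‖x + t • y‖ := by
    have h := norm_sub_norm_le (t • y) (-x)
    rw [norm_smul, hy, mul_one, Real.norm_eq_abs, abs_of_pos ht, norm_neg, hx,
      sub_neg_eq_add, add_comm] at h
    exact h
  have ht1 : t * (∫ z in A, |y z| ∂P) ≥ t * (1 / 2 - κ) := mul_le_mul_of_nonneg_left hyA ht.le
  have htκ : 0 ≤ t * κ := mul_nonneg ht.le hκ
  constructor
  · rcases max_cases (t / 2) (t - 1) with ⟨h, _⟩ | ⟨h, _⟩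
    · rw [h]; nlinarith
    · rw [h]; nlinarith
  · rcases max_cases (0 : ℝ) (t - 2) with ⟨h, _⟩ | ⟨h, _⟩
    · rw [h]; nlinarith
    · rw [h]; nlinarith

/-- **GE half of S0167.** -/
theorem net_moduli_ge (P : Measure Ω) [IsProbabilityMeasure P]
    (E : Submodule ℝ (Lp ℝ 1 P)) (hcl : IsClosed (E : Set (Lp ℝ 1 P)))
    (htb : UnitBallTotallyBoundedInMeasure P E) (t : ℝ) (ht : 0 < t) :
    (toRealBanach P E hcl).MidpointModulusGE (toRealBanach P E hcl).norm t
        (max (t / 2) (t - 1)) ∧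
      (toRealBanach P E hcl).OneSidedModulusGE (toRealBanach P E hcl).norm t
        (max 0 (t - 2)) := by
  have key : ∀ x : E, ‖x‖ = 1 → ∀ η : ℝ, 0 < η →
      ∃ S : Submodule ℝ E, IsClosed (S : Set E) ∧ FiniteDimensional ℝ (E ⧸ S) ∧
        ∀ y : E, y ∈ S → ‖y‖ = 1 →
          max (t / 2) (t - 1) - η ≤ (‖x + t • y‖ + ‖x - t • y‖) / 2 - 1 ∧
          max 0 (t - 2) - η ≤ ‖x + t • y‖ - 1 := by
    intro x hx η hη
    obtain ⟨κ, hκdef⟩ : ∃ κ : ℝ, κ = η / (2 * (1 + t)) := ⟨_, rfl⟩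
    have h1t : 0 < 1 + t := by linarith
    have hκpos : 0 < κ := by rw [hκdef]; positivity
    have hκη : 2 * (1 + t) * κ = η := by rw [hκdef]; field_simp
    obtain ⟨S, hScl, hSfd, hS⟩ := net_core P E htb (x : Lp ℝ 1 P) κ hκpos
    refine ⟨S, hScl, hSfd, fun y hyS hy1 => ?_⟩
    obtain ⟨A, hA, hxA, hyA⟩ := hS y hyS hy1
    have := net_est P (x : Lp ℝ 1 P) (y : Lp ℝ 1 P) (by rw [← Submodule.coe_norm, hx])
      (by rw [← Submodule.coe_norm, hy1]) t ht κ A hA hxA hyA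
    have e1 : ‖(x : Lp ℝ 1 P) + t • (y : Lp ℝ 1 P)‖ = ‖x + t • y‖ := by
      rw [Submodule.coe_norm]; rfl
    have e2 : ‖(x : Lp ℝ 1 P) - t • (y : Lp ℝ 1 P)‖ = ‖x - t • y‖ := by
      rw [Submodule.coe_norm]; rfl
    rw [e1, e2] at this
    constructor
    · have := this.1; nlinarith
    · have := this.2; nlinarith
  constructor
  · intro x hx η hη
    obtain ⟨S, hScl, hSfd, hS⟩ := key x hx η hη
    exact ⟨(S : Set E), ⟨S, rfl, hScl, hSfd⟩, fun y hy hy1 => (hS y hy hy1).1⟩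
  · intro x hx η hη
    obtain ⟨S, hScl, hSfd, hS⟩ := key x hx η hη
    exact ⟨(S : Set E), ⟨S, rfl, hScl, hSfd⟩, fun y hy hy1 => (hS y hy hy1).2⟩

end Crest.Agent.S0167
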