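import Crest.Agent.S0166.Tree

/-!
# Row 125 / S0167: weak neighbourhoods contain convex combinations of slices (finite-dim form)

`exists_convex_slices`: let `F` be a closed finite-codimensional subspace of `X ≠ 0`, `x₀` in the
unit ball, `τ > 0`. There are finitely many slices `{u | ‖u‖ ≤ 1 ∧ ‖ψ i‖ - δ i < ψ i u}`
(`ψ i ≠ 0`, `δ i > 0`) and convex weights `lam i` such that for EVERY choice of `u i` in the
`i`-th slice, `∑ lam i • u i - x₀` is `τ`-close to `F`.

Proof: in the finite-dimensional normed space `Q = X ⧸ F` let `K` be the closed unit ball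
(compact, convex; it is the closure of the image of the unit ball of `X`). By Krein–Milman
(`closure_convexHull_extremePoints`) the image `q x₀` is `τ/2`-close to a convex combination
`∑ lam i • e i` of extreme points of `K`.
Each extreme point `e` of a compact convex set is denting: cover the compact set `K \ ball e r`
by finitely many sets `K ∩ closedBall x (r/2)` (compact, convex, not containing `e`); the convex
hull `T` of their union is compact (iterated `convexJoin`) and does not contain `e` (extremality),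
so Hahn–Banach gives a functional `c` and `β` with `c e > β > c` on `T ⊇ K \ ball e r`, i.e. the
cap `{k ∈ K | c k ≥ β}` lies in `ball e r`.
Pull back: `ψ = c ∘ q` has `‖ψ‖ > β`; `δ = ‖ψ‖ - β`. (If `c ∘ q = 0` the cap is all of `K`
and any nonzero `ψ` with any `δ > 0` will do.)
-/

set_option autoImplicit false

namespace Crest.Agent.S0167

/-- The convex join of two compact sets is compact. -/
theorem denting_isCompact_convexJoin {E : Type*} [NormedAddCommGroup E] [NormedSpace ℝ E]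
    {s t : Set E} (hs : IsCompact s) (ht : IsCompact t) : IsCompact (convexJoin ℝ s t) := by
  have h : convexJoin ℝ s t =
      (fun p : E × E × ℝ => (1 - p.2.2) • p.1 + p.2.2 • p.2.1) ''
        (s ×ˢ t ×ˢ Set.Icc (0 : ℝ) 1) := by
    ext x
    simp only [mem_convexJoin, segment_eq_image, Set.mem_image, Set.mem_prod, Prod.exists]
    constructor
    · rintro ⟨a, ha, b, hb, θ, hθ, rfl⟩
      exact ⟨a, b, θ, ⟨ha, hb, hθ⟩, rfl⟩
    · rintro ⟨a, b, θ, ⟨ha, hb, hθ⟩, rfl⟩
      exact ⟨a, ha, b, hb, θ, hθ, rfl⟩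
  rw [h]
  exact (hs.prod (ht.prod isCompact_Icc)).image (by fun_prop)

/-- Finite unions of "small pieces" of a convex set `K` away from an extreme point `e` are
contained in a compact convex subset of `K` avoiding `e`. -/
theorem denting_aux_finset {E : Type*} [NormedAddCommGroup E] [NormedSpace ℝ E]
    {K : Set E} (hK : IsCompact K) (hKc : Convex ℝ K) {e : E} (he : e ∈ K.extremePoints ℝ)
    {r : ℝ} (t : Finset E) (ht : ∀ x ∈ t, r ≤ dist x e) (hr : 0 < r) :
    ∃ T : Set E, IsCompact T ∧ Convex ℝ T ∧ T ⊆ K ∧ e ∉ T ∧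
      ∀ x ∈ t, K ∩ Metric.closedBall x (r / 2) ⊆ T := by
  classical
  induction t using Finset.induction_on with
  | empty => exact ⟨∅, isCompact_empty, convex_empty, Set.empty_subset _, by simp, by simp⟩
  | insert a t hat ih =>
    obtain ⟨T, hTcomp, hTconv, hTK, heT, hT⟩ :=
      ih (fun x hx => ht x (Finset.mem_insert_of_mem hx))
    set Ka : Set E := K ∩ Metric.closedBall a (r / 2) with hKa
    have hKacomp : IsCompact Ka := hK.inter_right Metric.isClosed_closedBall
    have hKaconv : Convex ℝ Ka := hKc.inter (convex_closedBall a (r / 2))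
    have heKa : e ∉ Ka := by
      intro h
      have h1 : dist e a ≤ r / 2 := Metric.mem_closedBall.mp h.2
      have h2 : r ≤ dist a e := ht a (Finset.mem_insert_self a t)
      rw [dist_comm] at h1
      linarith
    rcases T.eq_empty_or_nonempty with hTe | hTne
    · refine ⟨Ka, hKacomp, hKaconv, Set.inter_subset_left, heKa, ?_⟩
      intro x hx
      rcases Finset.mem_insert.mp hx with rfl | hx
      · exact subset_rfl
      · exact (hT x hx).trans (by rw [hTe]; exact Set.empty_subset _)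
    rcases Ka.eq_empty_or_nonempty with hKae | hKane
    · refine ⟨T, hTcomp, hTconv, hTK, heT, ?_⟩
      intro x hx
      rcases Finset.mem_insert.mp hx with rfl | hx
      · rw [← hKa, hKae]; exact Set.empty_subset _
      · exact hT x hx
    · refine ⟨convexJoin ℝ T Ka, denting_isCompact_convexJoin hTcomp hKacomp,
        hTconv.convexJoin hKaconv, convexJoin_subset hTK Set.inter_subset_left hKc, ?_, ?_⟩
      · intro h
        obtain ⟨x₁, hx₁, x₂, hx₂, hseg⟩ := mem_convexJoin.mp h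
        rcases (mem_extremePoints_iff_forall_segment.mp he).2 x₁ (hTK hx₁) x₂ hx₂.1 hseg
          with h1 | h2
        · exact heT (h1 ▸ hx₁)
        · exact heKa (h2 ▸ hx₂)
      · intro x hx
        rcases Finset.mem_insert.mp hx with rfl | hx
        · exact subset_convexJoin_right hTne
        · exact (hT x hx).trans (subset_convexJoin_left hKane)

/-- Extreme points of compact convex sets are "denting" in the following weak sense: the part of
`K` outside a ball around `e` is contained in a compact convex set avoiding `e`. -/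
theorem denting_exists_compact_convex {E : Type*} [NormedAddCommGroup E] [NormedSpace ℝ E]
    {K : Set E} (hK : IsCompact K) (hKc : Convex ℝ K) {e : E} (he : e ∈ K.extremePoints ℝ)
    {r : ℝ} (hr : 0 < r) :
    ∃ T : Set E, IsCompact T ∧ Convex ℝ T ∧ e ∉ T ∧ K \ Metric.ball e r ⊆ T := by
  have hcomp : IsCompact (K \ Metric.ball e r) := hK.diff Metric.isOpen_ball
  obtain ⟨t, hts, htfin, hcov⟩ := finite_cover_balls_of_compact hcomp (half_pos hr)
  obtain ⟨T, hTcomp, hTconv, -, heT, hT⟩ :=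
    denting_aux_finset hK hKc he htfin.toFinset (r := r) (by
      intro x hx
      have hx' : x ∈ K \ Metric.ball e r := hts (htfin.mem_toFinset.mp hx)
      have := hx'.2
      rw [Metric.mem_ball, not_lt] at this
      exact this) hr
  refine ⟨T, hTcomp, hTconv, heT, ?_⟩
  intro k hk
  have hk' := hcov hk
  simp only [Set.mem_iUnion, Metric.mem_ball, exists_prop] at hk'
  obtain ⟨x, hxt, hkx⟩ := hk'
  exact hT x (htfin.mem_toFinset.mpr hxt) ⟨hk.1, Metric.mem_closedBall.mpr hkx.le⟩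

variable {X : Type*} [NormedAddCommGroup X] [NormedSpace ℝ X]

/-- Pull back of a small cap around an extreme point of the unit ball of `X ⧸ F` to a slice of
the unit ball of `X`. -/
theorem denting_slice (hX : ∃ x : X, x ≠ 0) (F : Submodule ℝ X) [IsClosed (F : Set X)]
    [ProperSpace (X ⧸ F)] {e : X ⧸ F}
    (he : e ∈ (Metric.closedBall (0 : X ⧸ F) 1).extremePoints ℝ) {r : ℝ} (hr : 0 < r) :
    ∃ (ψ : X →L[ℝ] ℝ) (δ : ℝ), ψ ≠ 0 ∧ 0 < δ ∧
      ∀ u : X, ‖u‖ ≤ 1 → ‖ψ‖ - δ < ψ u → ‖F.mkQ u - e‖ < r := by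
  obtain ⟨T, hTcomp, hTconv, heT, hsub⟩ :=
    denting_exists_compact_convex (isCompact_closedBall (0 : X ⧸ F) 1)
      (convex_closedBall (0 : X ⧸ F) 1) he hr
  obtain ⟨c, β, hcT, hβ⟩ := geometric_hahn_banach_closed_point hTconv hTcomp.isClosed heT
  have key : ∀ k : X ⧸ F, ‖k‖ ≤ 1 → β ≤ c k → ‖k - e‖ < r := by
    intro k hk hck
    by_contra hcon
    have hkT : k ∈ T := hsub ⟨by simpa using hk, by
      rw [Metric.mem_ball, dist_eq_norm]; exact hcon⟩
    exact absurd (hcT k hkT) (not_lt.mpr hck)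
  have hq : ∀ u : X, ‖u‖ ≤ 1 → ‖F.mkQ u‖ ≤ 1 := fun u hu =>
    (Submodule.Quotient.norm_mk_le F u).trans hu
  -- a point of the unit ball of `X` where `c ∘ q` exceeds `β`
  have hu₀ : ∃ u₀ : X, ‖u₀‖ ≤ 1 ∧ β < c (F.mkQ u₀) := by
    have heK : e ∈ closure (Metric.ball (0 : X ⧸ F) 1) := by
      rw [closure_ball (0 : X ⧸ F) one_ne_zero]
      exact extremePoints_subset he
    have hopen : IsOpen (c ⁻¹' Set.Ioi β) := isOpen_Ioi.preimage c.continuous
    obtain ⟨k, hkβ, hk1⟩ := mem_closure_iff.mp heK _ hopen hβ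
    have hk1' : ‖k‖ < 1 := by simpa using hk1
    obtain ⟨m, hm, hmn⟩ := Submodule.Quotient.norm_mk_lt k (sub_pos.mpr hk1')
    refine ⟨m, by linarith, ?_⟩
    rw [Submodule.mkQ_apply, hm]
    exact hkβ
  obtain ⟨u₀, hu₀n, hu₀β⟩ := hu₀
  set ψ : X →L[ℝ] ℝ := c.comp F.mkQL with hψdef
  have hψapp : ∀ u, ψ u = c (F.mkQ u) := fun u => by simp [hψdef]
  by_cases hψ : ψ = 0
  · obtain ⟨x, hx⟩ := hX
    obtain ⟨g, hg1, -⟩ := exists_dual_vector ℝ x (norm_ne_zero_iff.mpr hx)
    have hβ0 : β < 0 := by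
      have := hψapp u₀
      rw [hψ] at this
      simp only [zero_apply] at this
      linarith
    refine ⟨g, 1, ?_, one_pos, fun u hu _ => key _ (hq u hu) ?_⟩
    · intro hg
      rw [hg, norm_zero] at hg1
      exact zero_ne_one hg1
    · have := hψapp u
      rw [hψ] at this
      simp only [zero_apply] at this
      linarith
  · have hle : ψ u₀ ≤ ‖ψ‖ := by
      calc ψ u₀ ≤ ‖ψ u₀‖ := Real.le_norm_self _
        _ ≤ ‖ψ‖ * ‖u₀‖ := ψ.le_opNorm u₀
        _ ≤ ‖ψ‖ * 1 := by gcongr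
        _ = ‖ψ‖ := mul_one _
    refine ⟨ψ, ‖ψ‖ - β, hψ, ?_, fun u hu h => key _ (hq u hu) ?_⟩
    · rw [hψapp] at hle; linarith
    · rw [hψapp] at h; linarith

theorem exists_convex_slices (hX : ∃ x : X, x ≠ 0) (F : Submodule ℝ X)
    (hF : IsClosed (F : Set X)) (hfd : FiniteDimensional ℝ (X ⧸ F))
    (x₀ : X) (hx₀ : ‖x₀‖ ≤ 1) (τ : ℝ) (hτ : 0 < τ) :
    ∃ (n : ℕ) (ψ : Fin n → X →L[ℝ] ℝ) (δ : Fin n → ℝ) (lam : Fin n → ℝ),
      (∀ i, ψ i ≠ 0) ∧ (∀ i, 0 < δ i) ∧ (∀ i, 0 ≤ lam i) ∧ ∑ i, lam i = 1 ∧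
      ∀ u : Fin n → X, (∀ i, ‖u i‖ ≤ 1 ∧ ‖ψ i‖ - δ i < ψ i (u i)) →
        ∃ y ∈ F, ‖(∑ i, lam i • u i) - x₀ - y‖ < τ := by
  have : IsClosed (F : Set X) := hF
  have : FiniteDimensional ℝ (X ⧸ F) := hfd
  have : ProperSpace (X ⧸ F) := FiniteDimensional.proper_real _
  have hKc : IsCompact (Metric.closedBall (0 : X ⧸ F) 1) := isCompact_closedBall 0 1
  have hKconv : Convex ℝ (Metric.closedBall (0 : X ⧸ F) 1) := convex_closedBall 0 1
  have hx₀K : F.mkQ x₀ ∈ Metric.closedBall (0 : X ⧸ F) 1 := by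
    rw [mem_closedBall_zero_iff]
    exact (Submodule.Quotient.norm_mk_le F x₀).trans hx₀
  rw [← closure_convexHull_extremePoints hKc hKconv] at hx₀K
  obtain ⟨p, hp, hpd⟩ := Metric.mem_closure_iff.mp hx₀K (τ / 2) (half_pos hτ)
  obtain ⟨ι, _, w, z, hw0, hw1, hz, rfl⟩ := mem_convexHull_iff_exists_fintype.mp hp
  -- reindex by `Fin n`
  let eqv : Fin (Fintype.card ι) ≃ ι := (Fintype.equivFin ι).symm
  have hw1' : ∑ j, w (eqv j) = 1 := by rw [Equiv.sum_comp eqv w]; exact hw1
  have hsum' : ∑ j, w (eqv j) • z (eqv j) = ∑ i, w i • z i :=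
    Equiv.sum_comp eqv (fun i => w i • z i)
  rw [← hsum'] at hpd
  choose ψ δ hψ hδ hsl using fun i => denting_slice hX F (hz i) (half_pos hτ)
  refine ⟨Fintype.card ι, fun j => ψ (eqv j), fun j => δ (eqv j), fun j => w (eqv j),
    fun j => hψ _, fun j => hδ _, fun j => hw0 _, hw1', ?_⟩
  intro u hu
  have h1 : ‖F.mkQ ((∑ j, w (eqv j) • u j) - x₀)‖ < τ := by
    have e1 : F.mkQ ((∑ j, w (eqv j) • u j) - x₀) =
        (∑ j, w (eqv j) • (F.mkQ (u j) - z (eqv j))) +
          ((∑ j, w (eqv j) • z (eqv j)) - F.mkQ x₀) := by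
      rw [map_sub, map_sum]
      simp only [map_smul, smul_sub, Finset.sum_sub_distrib]
      abel
    have e2 : ‖∑ j, w (eqv j) • (F.mkQ (u j) - z (eqv j))‖ ≤ τ / 2 := by
      calc ‖∑ j, w (eqv j) • (F.mkQ (u j) - z (eqv j))‖
          ≤ ∑ j, ‖w (eqv j) • (F.mkQ (u j) - z (eqv j))‖ := norm_sum_le _ _
        _ ≤ ∑ j, w (eqv j) * (τ / 2) := by
            refine Finset.sum_le_sum fun j _ => ?_
            rw [norm_smul, Real.norm_of_nonneg (hw0 _)]
            exact mul_le_mul_of_nonneg_left (hsl _ (u j) (hu j).1 (hu j).2).le (hw0 _)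
        _ = τ / 2 := by rw [← Finset.sum_mul, hw1', one_mul]
    have e3 : ‖(∑ j, w (eqv j) • z (eqv j)) - F.mkQ x₀‖ < τ / 2 := by
      rw [← dist_eq_norm, dist_comm]; exact hpd
    rw [e1]
    calc _ ≤ ‖∑ j, w (eqv j) • (F.mkQ (u j) - z (eqv j))‖ +
          ‖(∑ j, w (eqv j) • z (eqv j)) - F.mkQ x₀‖ := norm_add_le _ _
      _ < τ / 2 + τ / 2 := by linarith
      _ = τ := by ring
  obtain ⟨m, hm, hmn⟩ := Submodule.Quotient.norm_mk_lt
    (F.mkQ ((∑ j, w (eqv j) • u j) - x₀)) (sub_pos.mpr h1)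
  refine ⟨(∑ j, w (eqv j) • u j) - x₀ - m, ?_, ?_⟩
  · rw [← Submodule.Quotient.mk_eq_zero F, Submodule.Quotient.mk_sub, hm, Submodule.mkQ_apply,
      sub_self]
  · have : (∑ j, w (eqv j) • u j) - x₀ - ((∑ j, w (eqv j) • u j) - x₀ - m) = m := by abel
    rw [this]
    linarith

end Crest.Agent.S0167
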