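import Crest.Agent.S0167.Slices
import Crest.Agent.S0167.Denting

/-!
# Row 125 / S0167: consequences of the Daugavet property

`daugavet_far` (**): for `‖x‖ = 1`, closed finite-codimensional `F`, `ε > 0` there is `f ∈ F` with
`‖x + f‖ ≤ 1 + ε` and `‖f‖ ≥ 2 - ε`.  [`exists_convex_slices` for `x₀ = x`, `τ = ε/2`; then
`exists_convex_comb_far` for `-x` with `(1-ε')^n · 2 ≥ 2 - ε/2`; `w = ∑ lam i • u i` has `‖w‖ ≤ 1`,
`‖w - x‖ ≥ 2 - ε/2` and `w - x` is `ε/2`-close to some `f ∈ F`.]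

`midLE_of_far`, `oneLE_of_far`: with `y = f / ‖f‖`, `r = ‖f‖ ∈ [2 - ε, 2 + ε]`:
`x + t y = (1 - t/r) x + (t/r)(x + f)`, so `‖x + t y‖ ≤ |1 - t/r| + (t/r)(1 + ε)` and
`‖x - t y‖ ≤ 1 + t`.

`no_auc_of_far`: tree lemma with `P z j := ‖z‖ = 1`, `z' = (z + f)/‖z + f‖`.
-/

set_option autoImplicit false

namespace Crest.Agent.S0167

open Crest.AnalysisR Crest.AnalysisR.L1Subspace Crest.Agent.S0166

variable {X : Type*} [NormedAddCommGroup X] [NormedSpace ℝ X]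

theorem daugavet_far (hD : HasDaugavetProperty X) (x : X) (hx : ‖x‖ = 1) (F : Submodule ℝ X)
    (hF : IsClosed (F : Set X)) (hfd : FiniteDimensional ℝ (X ⧸ F)) (ε : ℝ) (hε : 0 < ε) :
    ∃ f ∈ F, ‖x + f‖ ≤ 1 + ε ∧ 2 - ε ≤ ‖f‖ := by
  have hx0 : x ≠ 0 := by
    intro h0
    rw [h0, norm_zero] at hx
    exact zero_ne_one hx
  obtain ⟨n, ψ, δ, lam, hψ, hδ, hlam, hsum, hslice⟩ :=
    exists_convex_slices ⟨x, hx0⟩ F hF hfd x hx.le (ε / 2) (by positivity)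
  -- the loss parameter for the almost-orthogonal choice
  have hn1 : (0 : ℝ) < (n : ℝ) + 1 := by positivity
  obtain ⟨ε', hε'pos, hε'lt, hnε⟩ : ∃ ε' : ℝ, 0 < ε' ∧ ε' < 1 ∧ (n : ℝ) * ε' ≤ ε / 4 := by
    refine ⟨min (1 / 2) (ε / (4 * ((n : ℝ) + 1))), lt_min (by norm_num) (by positivity),
      lt_of_le_of_lt (min_le_left _ _) (by norm_num), ?_⟩
    have hle : min (1 / 2) (ε / (4 * ((n : ℝ) + 1))) ≤ ε / (4 * ((n : ℝ) + 1)) := min_le_right _ _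
    have hpos : 0 < min (1 / 2) (ε / (4 * ((n : ℝ) + 1))) := lt_min (by norm_num) (by positivity)
    have h1 : (n : ℝ) * min (1 / 2) (ε / (4 * ((n : ℝ) + 1)))
        ≤ ((n : ℝ) + 1) * (ε / (4 * ((n : ℝ) + 1))) :=
      mul_le_mul (by linarith) hle hpos.le hn1.le
    have h2 : ((n : ℝ) + 1) * (ε / (4 * ((n : ℝ) + 1))) = ε / 4 := by
      field_simp
    linarith
  have hpow : 1 - (n : ℝ) * ε' ≤ (1 - ε') ^ n := by
    have h := one_add_mul_le_pow (a := -ε') (by linarith) n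
    have e1 : 1 + (n : ℝ) * -ε' = 1 - (n : ℝ) * ε' := by ring
    have e2 : (1 : ℝ) + -ε' = 1 - ε' := by ring
    rw [e1, e2] at h
    exact h
  obtain ⟨u, hu, hfar⟩ := exists_convex_comb_far hD (-x) n ψ hψ δ hδ lam hlam ε' hε'pos hε'lt
  obtain ⟨y, hyF, hy⟩ := hslice u hu
  have hwnorm : ‖∑ i, lam i • u i‖ ≤ 1 := by
    calc ‖∑ i, lam i • u i‖ ≤ ∑ i, ‖lam i • u i‖ := norm_sum_le _ _
      _ ≤ ∑ i, lam i := by
          apply Finset.sum_le_sum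
          intro i _
          rw [norm_smul, Real.norm_eq_abs, abs_of_nonneg (hlam i)]
          calc lam i * ‖u i‖ ≤ lam i * 1 := mul_le_mul_of_nonneg_left (hu i).1 (hlam i)
            _ = lam i := mul_one _
      _ = 1 := hsum
  have hfar' : 2 - ε / 2 ≤ ‖(∑ i, lam i • u i) - x‖ := by
    have h1 : (1 - ε') ^ n * (‖-x‖ + ∑ i, lam i) ≤ ‖-x + ∑ i, lam i • u i‖ := hfar
    rw [norm_neg, hx, hsum] at h1
    have h2 : -x + ∑ i, lam i • u i = (∑ i, lam i • u i) - x := by abel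
    rw [h2] at h1
    nlinarith
  refine ⟨y, hyF, ?_, ?_⟩
  · have h1 : x + y = (∑ i, lam i • u i) - ((∑ i, lam i • u i) - x - y) := by abel
    rw [h1]
    calc ‖(∑ i, lam i • u i) - ((∑ i, lam i • u i) - x - y)‖
        ≤ ‖∑ i, lam i • u i‖ + ‖(∑ i, lam i • u i) - x - y‖ := norm_sub_le _ _
      _ ≤ 1 + ε := by linarith
  · have h2 : ‖(∑ i, lam i • u i) - x‖ ≤ ‖(∑ i, lam i • u i) - x - y‖ + ‖y‖ := by
      calc ‖(∑ i, lam i • u i) - x‖ = ‖((∑ i, lam i • u i) - x - y) + y‖ := by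
            congr 1; abel
        _ ≤ _ := norm_add_le _ _
    linarith

/-- The property (**) as a hypothesis. -/
def FarProp (X : Type*) [NormedAddCommGroup X] [NormedSpace ℝ X] : Prop :=
  ∀ x : X, ‖x‖ = 1 → ∀ F : Submodule ℝ X, IsClosed (F : Set X) →
    FiniteDimensional ℝ (X ⧸ F) → ∀ ε : ℝ, 0 < ε → ∃ f ∈ F, ‖x + f‖ ≤ 1 + ε ∧ 2 - ε ≤ ‖f‖

theorem farProp_of_daugavet (hD : HasDaugavetProperty X) : FarProp X :=
  fun x hx F hF hfd ε hε => daugavet_far hD x hx F hF hfd ε hε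

/-- Real-variable estimate behind `midLE_of_far` and `oneLE_of_far`. -/
theorem DFar_real_aux (t r ε : ℝ) (ht : 0 < t) (hε : 0 < ε) (hε1 : ε ≤ 1) (hr : 2 - ε ≤ r) :
    |1 - t / r| + t / r * (1 + ε) ≤ max 1 (t - 1) + 2 * t * ε := by
  have hr1 : 1 ≤ r := by linarith
  have hr0 : 0 < r := by linarith
  have hs : t / r ≤ t := div_le_self ht.le hr1
  have hs0 : 0 < t / r := div_pos ht hr0
  rcases le_or_gt t r with htr | htr
  · have h1 : t / r ≤ 1 := (div_le_one hr0).mpr htr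
    rw [abs_of_nonneg (by linarith)]
    have h2 : t / r * ε ≤ t * ε := mul_le_mul_of_nonneg_right hs hε.le
    have h3 := le_max_left (1 : ℝ) (t - 1)
    have h4 : 0 ≤ t * ε := by positivity
    nlinarith
  · have h1 : 1 < t / r := (one_lt_div hr0).mpr htr
    rw [abs_of_nonpos (by linarith)]
    have h2 : t / r * (2 + ε) ≤ t * (1 + 2 * ε) := by
      rw [div_mul_eq_mul_div, div_le_iff₀ hr0]
      have h5 : (2 + ε) ≤ (1 + 2 * ε) * r := by nlinarith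
      have h6 : t * (2 + ε) ≤ t * ((1 + 2 * ε) * r) := mul_le_mul_of_nonneg_left h5 ht.le
      linarith
    have h3 := le_max_right (1 : ℝ) (t - 1)
    nlinarith

/-- The far property gives, in every closed finite-codimensional subspace, a unit vector `y` with
`‖x - t y‖ ≤ 1 + t` and `‖x + t y‖ ≤ max 1 (t - 1) + 2 t ε`. -/
theorem DFar_far_unit (h : FarProp X) (x : X) (hx : ‖x‖ = 1) (F : Set X) (hF : CofSet F)
    (t : ℝ) (ht : 0 < t) (ε : ℝ) (hε : 0 < ε) (hε1 : ε ≤ 1) :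
    ∃ y ∈ F, ‖y‖ = 1 ∧ ‖x - t • y‖ ≤ 1 + t ∧ ‖x + t • y‖ ≤ max 1 (t - 1) + 2 * t * ε := by
  obtain ⟨S, rfl, hSc, hSf⟩ := hF
  obtain ⟨f, hfS, hf1, hf2⟩ := h x hx S hSc hSf ε hε
  have hr1 : 1 ≤ ‖f‖ := by linarith
  have hr0 : 0 < ‖f‖ := by linarith
  have hynorm : ‖(‖f‖⁻¹ : ℝ) • f‖ = 1 := by
    rw [norm_smul, norm_inv, norm_norm]
    exact inv_mul_cancel₀ hr0.ne'
  refine ⟨(‖f‖⁻¹ : ℝ) • f, S.smul_mem _ hfS, hynorm, ?_, ?_⟩
  · calc ‖x - t • (‖f‖⁻¹ : ℝ) • f‖ ≤ ‖x‖ + ‖t • (‖f‖⁻¹ : ℝ) • f‖ := norm_sub_le _ _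
      _ = 1 + t := by
          rw [hx, norm_smul, hynorm, Real.norm_eq_abs, abs_of_pos ht, mul_one]
  · have hdecomp : x + t • (‖f‖⁻¹ : ℝ) • f = (1 - t / ‖f‖) • x + (t / ‖f‖) • (x + f) := by
      rw [smul_smul, smul_add, sub_smul, one_smul, div_eq_mul_inv]
      abel
    have hb : ‖x + t • (‖f‖⁻¹ : ℝ) • f‖ ≤ |1 - t / ‖f‖| + t / ‖f‖ * (1 + ε) := by
      rw [hdecomp]
      calc ‖(1 - t / ‖f‖) • x + (t / ‖f‖) • (x + f)‖
          ≤ ‖(1 - t / ‖f‖) • x‖ + ‖(t / ‖f‖) • (x + f)‖ := norm_add_le _ _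
        _ = |1 - t / ‖f‖| * 1 + t / ‖f‖ * ‖x + f‖ := by
            rw [norm_smul, norm_smul, hx, Real.norm_eq_abs, Real.norm_eq_abs,
              abs_of_pos (div_pos ht hr0)]
        _ ≤ |1 - t / ‖f‖| + t / ‖f‖ * (1 + ε) := by
            rw [mul_one]
            have := mul_le_mul_of_nonneg_left hf1 (div_pos ht hr0).le
            linarith
    exact hb.trans (DFar_real_aux t ‖f‖ ε ht hε hε1 hf2)

theorem midLE_of_far (h : FarProp X) (t : ℝ) (ht : 0 < t) :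
    MidLE (fun x : X => ‖x‖) t (max (t / 2) (t - 1)) := by
  intro x hx F hF η hη
  have hx' : ‖x‖ = 1 := hx
  have hε : 0 < min 1 (η / (2 * t)) := lt_min one_pos (by positivity)
  have hε1 : min 1 (η / (2 * t)) ≤ 1 := min_le_left _ _
  have hε2 : 2 * t * min 1 (η / (2 * t)) ≤ η := by
    have h1 : min 1 (η / (2 * t)) ≤ η / (2 * t) := min_le_right _ _
    have h2 : 2 * t * min 1 (η / (2 * t)) ≤ 2 * t * (η / (2 * t)) :=
      mul_le_mul_of_nonneg_left h1 (by positivity)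
    have h3 : 2 * t * (η / (2 * t)) = η := by field_simp
    linarith
  obtain ⟨y, hyF, hy1, hm, hp⟩ := DFar_far_unit h x hx' F hF t ht _ hε hε1
  refine ⟨y, hyF, hy1, ?_⟩
  show (‖x + t • y‖ + ‖x - t • y‖) / 2 - 1 ≤ max (t / 2) (t - 1) + η
  have hmax : max (1 : ℝ) (t - 1) + t - 1 = 2 * max (t / 2) (t - 1) := by
    rcases le_total 1 (t - 1) with h1 | h1
    · rw [max_eq_right h1, max_eq_right (by linarith)]; ring
    · rw [max_eq_left h1, max_eq_left (by linarith)]; ring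
  linarith

theorem oneLE_of_far (h : FarProp X) (t : ℝ) (ht : 0 < t) :
    OneLE (fun x : X => ‖x‖) t (max 0 (t - 2)) := by
  intro x hx F hF η hη
  have hx' : ‖x‖ = 1 := hx
  have hε : 0 < min 1 (η / (2 * t)) := lt_min one_pos (by positivity)
  have hε1 : min 1 (η / (2 * t)) ≤ 1 := min_le_left _ _
  have hε2 : 2 * t * min 1 (η / (2 * t)) ≤ η := by
    have h1 : min 1 (η / (2 * t)) ≤ η / (2 * t) := min_le_right _ _
    have h2 : 2 * t * min 1 (η / (2 * t)) ≤ 2 * t * (η / (2 * t)) :=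
      mul_le_mul_of_nonneg_left h1 (by positivity)
    have h3 : 2 * t * (η / (2 * t)) = η := by field_simp
    linarith
  obtain ⟨y, hyF, hy1, hm, hp⟩ := DFar_far_unit h x hx' F hF t ht _ hε hε1
  refine ⟨y, hyF, hy1, ?_⟩
  show ‖x + t • y‖ - 1 ≤ max 0 (t - 2) + η
  have hmax : max (1 : ℝ) (t - 1) - 1 = max 0 (t - 2) := by
    rcases le_total 1 (t - 1) with h1 | h1
    · rw [max_eq_right h1, max_eq_right (by linarith)]; ring
    · rw [max_eq_left h1, max_eq_left (by linarith)]; ring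
  linarith

theorem no_auc_of_far (h : FarProp X) (hX : ∃ x : X, x ≠ 0) (N : X → ℝ) (hN : EquivNorm N) :
    ¬ AUCNorm N := by
  refine no_auc_of_tree (fun z _ => ‖z‖ = 1) 1 1 1 one_pos one_pos ?_ ?_ ?_ N hN
  · intro m
    obtain ⟨x, hx⟩ := hX
    refine ⟨(‖x‖⁻¹ : ℝ) • x, ?_⟩
    show ‖(‖x‖⁻¹ : ℝ) • x‖ = 1
    rw [norm_smul, norm_inv, norm_norm]
    exact inv_mul_cancel₀ (norm_ne_zero_iff.mpr hx)
  · intro z j hz
    have hz' : ‖z‖ = 1 := hz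
    exact ⟨hz'.ge, hz'.le⟩
  · intro z j hz F hF hfd ε hε
    have hz' : ‖z‖ = 1 := hz
    obtain ⟨ε₁, hε₁, hε₁a, hε₁b⟩ : ∃ ε₁ : ℝ, 0 < ε₁ ∧ ε₁ ≤ 1 / 2 ∧ ε₁ ≤ ε / 2 :=
      ⟨min (1 / 2) (ε / 2), lt_min (by norm_num) (by positivity), min_le_left _ _,
        min_le_right _ _⟩
    obtain ⟨f, hfF, hf1, hf2⟩ := h z hz' F hF hfd ε₁ hε₁
    have hρlow : 1 - ε₁ ≤ ‖z + f‖ := by
      have h1 : ‖f‖ ≤ ‖z + f‖ + ‖z‖ := by
        calc ‖f‖ = ‖(z + f) - z‖ := by congr 1; abel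
          _ ≤ _ := norm_sub_le _ _
      linarith
    have hρ0 : 0 < ‖z + f‖ := by linarith
    have hz'norm : ‖(‖z + f‖⁻¹ : ℝ) • (z + f)‖ = 1 := by
      rw [norm_smul, norm_inv, norm_norm]
      exact inv_mul_cancel₀ hρ0.ne'
    have hdiff : (‖z + f‖⁻¹ : ℝ) • (z + f) - z - f = (‖z + f‖⁻¹ - 1) • (z + f) := by
      rw [sub_smul, one_smul]; abel
    have hdn : ‖(‖z + f‖⁻¹ : ℝ) • (z + f) - z - f‖ ≤ ε₁ := by
      rw [hdiff, norm_smul, Real.norm_eq_abs]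
      have h1 : |‖z + f‖⁻¹ - 1| * ‖z + f‖ = |1 - ‖z + f‖| := by
        rw [← abs_of_pos hρ0, ← abs_mul, abs_of_pos hρ0]
        congr 1
        field_simp
      rw [h1, abs_le]
      constructor <;> linarith
    refine ⟨(‖z + f‖⁻¹ : ℝ) • (z + f), f, hz'norm, hfF, ?_, lt_of_le_of_lt hdn (by linarith)⟩
    have h2 : ‖f‖ ≤ ‖(‖z + f‖⁻¹ : ℝ) • (z + f) - z‖ + ‖(‖z + f‖⁻¹ : ℝ) • (z + f) - z - f‖ := by
      calc ‖f‖ = ‖((‖z + f‖⁻¹ : ℝ) • (z + f) - z) - ((‖z + f‖⁻¹ : ℝ) • (z + f) - z - f)‖ := by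
            congr 1; abel
        _ ≤ _ := norm_sub_le _ _
    linarith

end Crest.Agent.S0167
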