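import Crest.Agent.S0166.Tree
import Crest.Agent.S0167.Net
import Crest.Prelude.Def_DaugavetL1

/-!
# Row 125 / S0167: lower bounds from total boundedness in measure

`exists_cof_half` (*): for `ε > 0` let `s` be the `ε`-net of the unit ball of `E` for
`measureDist`, and `F` the common kernel of the functionals `u ↦ ∫ sign(g) u` (`g ∈ s`). For
`y ∈ F` with `‖y‖ = 1` pick `g ∈ s` with `measureDist y g < ε`, i.e. some `a < ε` with
`P A < a` for `A = {a < |y - g|}`. Then, as `∫ sign(g) y = 0`,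
`∫_A |y| ≥ -∫_A sign(g) y = ∫_{Aᶜ} sign(g) y ≥ ∫_{Aᶜ} |g| - a ≥ ∫_{Aᶜ} |y| - 2a = 1 - ∫_A |y| - 2a`,
so `∫_A |y| ≥ 1/2 - a`. (General `y` by homogeneity.)

`midGE_L1`: `(‖x+ty‖ + ‖x-ty‖)/2 ≥ t` (triangle inequality) and, with `A` as above for a small
`ε` and `∫_A |x|` small (absolute continuity of the integral),
`‖x+ty‖ + ‖x-ty‖ ≥ ∫_{Aᶜ} 2|x| + ∫_A 2t|y| ≥ 2 + t - η`.

`oneGE_L1`: `‖x+ty‖ ≥ t - 1` and
`‖x+ty‖ ≥ ∫_{Aᶜ} (|x| - t|y|) + ∫_A (t|y| - |x|) = 1 - 2∫_A|x| + t(2∫_A|y| - 1) ≥ 1 - η`.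

The measure-theoretic estimates are those of `Net.lean` (`net_K`, `net_core`, `net_est`).
-/

set_option autoImplicit false

namespace Crest.Agent.S0167

open MeasureTheory Crest.AnalysisR Crest.AnalysisR.L1Subspace Crest.Agent.S0166

variable {Ω : Type} [MeasurableSpace Ω] (P : Measure Ω) [IsProbabilityMeasure P]
  (E : Submodule ℝ (Lp ℝ 1 P))

theorem exists_cof_half (htb : UnitBallTotallyBoundedInMeasure P E) (ε : ℝ) (hε : 0 < ε) :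
    ∃ F : Submodule ℝ E, IsClosed (F : Set E) ∧ FiniteDimensional ℝ (E ⧸ F) ∧
      ∀ y ∈ F, ∃ A : Set Ω, MeasurableSet A ∧ P A ≤ ENNReal.ofReal ε ∧
        (1 / 2 - ε) * ‖y‖ ≤ ∫ z in A, |((y : Lp ℝ 1 P) : Ω → ℝ) z| ∂P := by
  obtain ⟨s, hs, hnet⟩ := htb ε hε
  refine ⟨net_sub P E s, net_sub_closed P E s, net_sub_findim P E s, ?_⟩
  intro y hyS
  by_cases hy0 : y = 0
  · refine ⟨∅, MeasurableSet.empty, by simp, ?_⟩
    subst hy0
    simp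
  · have hn : 0 < ‖y‖ := norm_pos_iff.mpr hy0
    obtain ⟨y', hy'⟩ : ∃ y' : E, y' = ‖y‖⁻¹ • y := ⟨_, rfl⟩
    have hy'1 : ‖y'‖ = 1 := by
      rw [hy', norm_smul, norm_inv, norm_norm, inv_mul_cancel₀ hn.ne']
    have hy'S : y' ∈ net_sub P E s := by
      rw [hy']; exact Submodule.smul_mem _ _ hyS
    obtain ⟨g, hgs, hdist⟩ := hnet (y' : Lp ℝ 1 P) y'.2 (by rw [← Submodule.coe_norm, hy'1])
    unfold measureDist at hdist
    have hne : {a : ℝ | 0 < a ∧ P {z | a < abs (((y' : Lp ℝ 1 P) : Ω → ℝ) z - (g : Ω → ℝ) z)}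
        < ENNReal.ofReal a}.Nonempty := by
      refine ⟨2, by norm_num, ?_⟩
      calc P {z | (2:ℝ) < abs (((y' : Lp ℝ 1 P) : Ω → ℝ) z - (g : Ω → ℝ) z)} ≤ 1 := prob_le_one
        _ < ENNReal.ofReal 2 := by
          rw [show (1 : ENNReal) = ENNReal.ofReal 1 by simp]
          exact (ENNReal.ofReal_lt_ofReal_iff (by norm_num)).mpr (by norm_num)
    obtain ⟨a, ⟨hapos, haP⟩, haε⟩ := exists_lt_of_csInf_lt hne hdist
    have hfm : Measurable ((y' : Lp ℝ 1 P) : Ω → ℝ) := (Lp.stronglyMeasurable _).measurable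
    have hgm : Measurable (g : Ω → ℝ) := (Lp.stronglyMeasurable _).measurable
    refine ⟨{z | a < abs (((y' : Lp ℝ 1 P) : Ω → ℝ) z - (g : Ω → ℝ) z)},
      measurableSet_lt measurable_const (hfm.sub hgm).abs, ?_, ?_⟩
    · exact haP.le.trans (ENNReal.ofReal_le_ofReal haε.le)
    · have hzero : ∫ z, net_sgn ((g : Ω → ℝ) z) * ((y' : Lp ℝ 1 P) : Ω → ℝ) z ∂P = 0 :=
        (net_mem_sub P E s y').mp hy'S g hgs
      have hK := net_K P ((y' : Lp ℝ 1 P) : Ω → ℝ) (g : Ω → ℝ) (L1.integrable_coeFn _) hgm hfm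
        hzero a hapos.le
      have hnorm : ∫ z, |((y' : Lp ℝ 1 P) : Ω → ℝ) z| ∂P = 1 := by
        rw [← net_norm_eq, ← Submodule.coe_norm, hy'1]
      rw [hnorm] at hK
      have hae : ∀ᵐ z ∂P, |((y' : Lp ℝ 1 P) : Ω → ℝ) z|
          = ‖y‖⁻¹ * |((y : Lp ℝ 1 P) : Ω → ℝ) z| := by
        have hcoe : ((y' : E) : Lp ℝ 1 P) = ‖y‖⁻¹ • (y : Lp ℝ 1 P) := by rw [hy']; rfl
        rw [hcoe]
        filter_upwards [Lp.coeFn_smul (‖y‖⁻¹) (y : Lp ℝ 1 P)] with z hz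
        rw [hz, Pi.smul_apply, smul_eq_mul, abs_mul, abs_of_pos (inv_pos.mpr hn)]
      have hint : ∫ z in {z | a < abs (((y' : Lp ℝ 1 P) : Ω → ℝ) z - (g : Ω → ℝ) z)},
            |((y' : Lp ℝ 1 P) : Ω → ℝ) z| ∂P
          = ‖y‖⁻¹ * ∫ z in {z | a < abs (((y' : Lp ℝ 1 P) : Ω → ℝ) z - (g : Ω → ℝ) z)},
            |((y : Lp ℝ 1 P) : Ω → ℝ) z| ∂P := by
        rw [← integral_const_mul]
        exact integral_congr_ae (ae_restrict_of_ae hae)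
      rw [hint, inv_mul_eq_div, le_div_iff₀ hn] at hK
      nlinarith

/-- Common core of `midGE_L1` and `oneGE_L1`. -/
theorem half_key (htb : UnitBallTotallyBoundedInMeasure P E) (t : ℝ) (ht : 0 < t)
    (x : E) (hx : ‖x‖ = 1) (η : ℝ) (hη : 0 < η) :
    ∃ S : Submodule ℝ E, IsClosed (S : Set E) ∧ FiniteDimensional ℝ (E ⧸ S) ∧
      ∀ y : E, y ∈ S → ‖y‖ = 1 →
        max (t / 2) (t - 1) - η ≤ (‖x + t • y‖ + ‖x - t • y‖) / 2 - 1 ∧
        max 0 (t - 2) - η ≤ ‖x + t • y‖ - 1 := by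
  obtain ⟨κ, hκdef⟩ : ∃ κ : ℝ, κ = η / (2 * (1 + t)) := ⟨_, rfl⟩
  have h1t : 0 < 1 + t := by linarith
  have hκpos : 0 < κ := by rw [hκdef]; positivity
  have hκη : 2 * (1 + t) * κ = η := by rw [hκdef]; field_simp
  obtain ⟨S, hScl, hSfd, hS⟩ := net_core P E htb (x : Lp ℝ 1 P) κ hκpos
  refine ⟨S, hScl, hSfd, fun y hyS hy1 => ?_⟩
  obtain ⟨A, hA, hxA, hyA⟩ := hS y hyS hy1
  have := net_est P (x : Lp ℝ 1 P) (y : Lp ℝ 1 P) (by rw [← Submodule.coe_norm, hx])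
    (by rw [← Submodule.coe_norm, hy1]) t ht κ A hA hxA hyA
  have e1 : ‖(x : Lp ℝ 1 P) + t • (y : Lp ℝ 1 P)‖ = ‖x + t • y‖ := by
    rw [Submodule.coe_norm]; rfl
  have e2 : ‖(x : Lp ℝ 1 P) - t • (y : Lp ℝ 1 P)‖ = ‖x - t • y‖ := by
    rw [Submodule.coe_norm]; rfl
  rw [e1, e2] at this
  constructor
  · have := this.1; nlinarith
  · have := this.2; nlinarith

theorem midGE_L1 (htb : UnitBallTotallyBoundedInMeasure P E) (t : ℝ) (ht : 0 < t) :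
    MidGE (fun x : E => ‖x‖) t (max (t / 2) (t - 1)) := by
  intro x hx η hη
  obtain ⟨S, hScl, hSfd, hS⟩ := half_key P E htb t ht x hx η hη
  exact ⟨(S : Set E), ⟨S, rfl, hScl, hSfd⟩, fun y hy hy1 => (hS y hy hy1).1⟩

theorem oneGE_L1 (htb : UnitBallTotallyBoundedInMeasure P E) (t : ℝ) (ht : 0 < t) :
    OneGE (fun x : E => ‖x‖) t (max 0 (t - 2)) := by
  intro x hx η hη
  obtain ⟨S, hScl, hSfd, hS⟩ := half_key P E htb t ht x hx η hη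
  exact ⟨(S : Set E), ⟨S, rfl, hScl, hSfd⟩, fun y hy hy1 => (hS y hy hy1).2⟩

end Crest.Agent.S0167
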