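import Crest.Agent.S0166.Tree
import Crest.Prelude.Def_DaugavetL1

/-!
# Row 125 / S0167: slices in spaces with the Daugavet property

A slice of the unit ball is `{u | ‖u‖ ≤ 1 ∧ ‖ψ‖ - δ < ψ u}` for a nonzero functional `ψ` and
`δ > 0`. With `hD : HasDaugavetProperty X` (rank-one form):

1. (`exists_in_slice_far`) for `‖x‖ = 1`: some `u` in the slice has `‖x + u‖ > 2 - ε`
   [`T = ψ/‖ψ‖ ⊗ x`, `‖Id + T‖ = 2`, take `u` with `‖u + ψ'(u) x‖ > 2 - ε/2`, replace `u` by `-u`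
   if needed].
2. (sub-slice) there is a slice inside the given one all of whose points have `‖x + u‖ > 2 - ε`
   [`χ` norming `x + u₀`, new functional `ψ/‖ψ‖ + χ`].
3. (`exists_in_slice_almost_orth`, Shvidkoy) for a finite-dimensional subspace `Y`: some `u` in the
   slice with `(1 - ε)(‖y‖ + λ) ≤ ‖y + λ u‖` for all `y ∈ Y`, `λ ≥ 0` [finite net of the unit
   sphere of `Y`, iterate 2].
4. (`exists_convex_comb_far`) sequential choice of `u i` in slices `i = 0, …, n-1`, each almost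
   orthogonal to the span of `x` and the previous ones.
-/

set_option autoImplicit false

namespace Crest.Agent.S0167

open Crest.AnalysisR Crest.AnalysisR.L1Subspace

variable {X : Type*} [NormedAddCommGroup X] [NormedSpace ℝ X]

theorem exists_in_slice_far (hD : HasDaugavetProperty X) (x : X) (hx : ‖x‖ = 1)
    (ψ : X →L[ℝ] ℝ) (hψ : ψ ≠ 0) (δ : ℝ) (hδ : 0 < δ) (ε : ℝ) (hε : 0 < ε) :
    ∃ u : X, ‖u‖ ≤ 1 ∧ ‖ψ‖ - δ < ψ u ∧ 2 - ε < ‖x + u‖ := by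
  sorry

theorem exists_in_slice_almost_orth (hD : HasDaugavetProperty X) (Y : Submodule ℝ X)
    [FiniteDimensional ℝ Y] (ψ : X →L[ℝ] ℝ) (hψ : ψ ≠ 0) (δ : ℝ) (hδ : 0 < δ)
    (ε : ℝ) (hε : 0 < ε) :
    ∃ u : X, ‖u‖ ≤ 1 ∧ ‖ψ‖ - δ < ψ u ∧
      ∀ y ∈ Y, ∀ lam : ℝ, 0 ≤ lam → (1 - ε) * (‖y‖ + lam) ≤ ‖y + lam • u‖ := by
  sorry

theorem exists_convex_comb_far (hD : HasDaugavetProperty X) (x : X) (n : ℕ)
    (ψ : Fin n → X →L[ℝ] ℝ) (hψ : ∀ i, ψ i ≠ 0) (δ : Fin n → ℝ) (hδ : ∀ i, 0 < δ i)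
    (lam : Fin n → ℝ) (hlam : ∀ i, 0 ≤ lam i) (ε : ℝ) (hε : 0 < ε) (hε1 : ε < 1) :
    ∃ u : Fin n → X, (∀ i, ‖u i‖ ≤ 1 ∧ ‖ψ i‖ - δ i < ψ i (u i)) ∧
      (1 - ε) ^ n * (‖x‖ + ∑ i, lam i) ≤ ‖x + ∑ i, lam i • u i‖ := by
  sorry

end Crest.Agent.S0167
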